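import Mathlib

open Matrix Finset
open scoped ComplexOrder MatrixOrder

namespace Vale.Agent.P358

variable {n m : Type*} [Fintype n] [DecidableEq n] [Fintype m] [DecidableEq m]

lemma spec {M : Matrix n n ℂ} (hM : M.IsHermitian) :
    ∃ U : Matrix n n ℂ, U * Uᴴ = 1 ∧ Uᴴ * U = 1 ∧
      M = U * diagonal (fun i => (hM.eigenvalues i : ℂ)) * Uᴴ := by
  refine ⟨hM.eigenvectorUnitary, ?_, ?_, ?_⟩
  · exact (Matrix.mem_unitaryGroup_iff).1 hM.eigenvectorUnitary.2
  · exact (Matrix.mem_unitaryGroup_iff').1 hM.eigenvectorUnitary.2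
  · exact hM.spectral_theorem

lemma det_conj {U M : Matrix n n ℂ} (hU : U * Uᴴ = 1) : (U * M * Uᴴ).det = M.det := by
  have h := congrArg det hU
  rw [det_mul, det_one] at h
  rw [det_mul, det_mul]
  linear_combination M.det * h

lemma det_one_add_conj {U : Matrix n n ℂ} (hU : U * Uᴴ = 1) (μ : n → ℝ) (c : ℝ) :
    (1 + (c : ℂ) • (U * diagonal (fun i => (μ i : ℂ)) * Uᴴ)).det =
      ((∏ i, (1 + c * μ i) : ℝ) : ℂ) := by
  have : 1 + (c : ℂ) • (U * diagonal (fun i => (μ i : ℂ)) * Uᴴ) =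
      U * diagonal (fun i => ((1 + c * μ i : ℝ) : ℂ)) * Uᴴ := by
    have h2 : diagonal (fun i => ((1 + c * μ i : ℝ) : ℂ)) =
        1 + (c : ℂ) • diagonal (fun i => (μ i : ℂ)) := by
      ext i j
      by_cases h : i = j
      · subst h; simp
      · simp [h]
    rw [h2, Matrix.mul_add, Matrix.add_mul, Matrix.mul_one, hU, Matrix.mul_smul, Matrix.smul_mul]
  rw [this, det_conj hU, det_diagonal]
  push_cast
  rfl

lemma det_one_add_eig {M : Matrix n n ℂ} (hM : M.IsHermitian) (c : ℝ) :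
    (1 + (c : ℂ) • M).det = ((∏ i, (1 + c * hM.eigenvalues i) : ℝ) : ℂ) := by
  obtain ⟨U, h1, -, h3⟩ := spec hM
  conv_lhs => rw [h3]
  exact det_one_add_conj h1 _ c

lemma re_trace_eig {M : Matrix n n ℂ} (hM : M.IsHermitian) :
    M.trace.re = ∑ i, hM.eigenvalues i := by
  rw [hM.trace_eq_sum_eigenvalues]
  simp

lemma re_det_eig {M : Matrix n n ℂ} (hM : M.IsHermitian) :
    M.det.re = ∏ i, hM.eigenvalues i := by
  rw [hM.det_eq_prod_eigenvalues]
  have : (∏ i, (hM.eigenvalues i : ℂ)) = ((∏ i, hM.eigenvalues i : ℝ) : ℂ) := by push_cast; rfl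
  exact (congrArg Complex.re this).trans (Complex.ofReal_re _)

lemma det_real {M : Matrix n n ℂ} (hM : M.IsHermitian) : M.det = (M.det.re : ℂ) := by
  rw [re_det_eig hM, hM.det_eq_prod_eigenvalues]
  push_cast
  rfl

lemma re_det_nonneg {M : Matrix n n ℂ} (hM : M.PosSemidef) : 0 ≤ M.det.re :=
  (Complex.le_def.1 hM.det_nonneg).1

lemma re_det_pos {M : Matrix n n ℂ} (hM : M.PosDef) : 0 < M.det.re :=
  (Complex.lt_def.1 hM.det_pos).1

lemma diag_real {M : Matrix n n ℂ} (hM : M.PosSemidef) (i : n) : M i i = ((M i i).re : ℂ) := by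
  have := Complex.le_def.1 (hM.diag_nonneg (i := i))
  apply Complex.ext <;> simp
  exact this.2.symm

lemma re_diag_nonneg {M : Matrix n n ℂ} (hM : M.PosSemidef) (i : n) : 0 ≤ (M i i).re :=
  (Complex.le_def.1 (hM.diag_nonneg (i := i))).1

lemma re_diag_pos {M : Matrix n n ℂ} (hM : M.PosDef) (i : n) : 0 < (M i i).re :=
  (Complex.lt_def.1 (hM.diag_pos (i := i))).1

lemma exists_factor {M : Matrix n n ℂ} (hM : M.PosSemidef) : ∃ B : Matrix n n ℂ, M = B * Bᴴ := by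
  obtain ⟨B, hB⟩ := CStarAlgebra.nonneg_iff_eq_mul_star_self.mp hM.nonneg
  exact ⟨B, hB⟩

lemma one_le_det {W : Matrix n n ℂ} (hW : W.PosSemidef) : 1 ≤ (1 + W).det.re := by
  have := det_one_add_eig hW.1 1
  simp only [Complex.ofReal_one, one_smul, one_mul] at this
  rw [this, Complex.ofReal_re]
  calc (1 : ℝ) = ∏ _i : n, 1 := by simp
    _ ≤ _ := Finset.prod_le_prod (fun _ _ => zero_le_one)
      fun i _ => by linarith [hW.eigenvalues_nonneg i]

lemma det_mono {T W : Matrix n n ℂ} (hT : T.PosSemidef) (hW : W.PosSemidef) :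
    T.det.re ≤ (T + W).det.re := by
  by_cases h0 : T.det = 0
  · rw [h0]; exact re_det_nonneg (hT.add hW)
  obtain ⟨B, hB⟩ := exists_factor hT
  have hBu : IsUnit B.det := by
    rw [isUnit_iff_ne_zero]
    intro h
    apply h0
    rw [hB, det_mul, h, zero_mul]
  have h1 : T + W = B * (1 + B⁻¹ * W * B⁻¹ᴴ) * Bᴴ := by
    have h2 : B⁻¹ᴴ * Bᴴ = 1 := by rw [← conjTranspose_mul, mul_nonsing_inv _ hBu, conjTranspose_one]
    rw [Matrix.mul_add, Matrix.add_mul, Matrix.mul_one, ← hB, ← Matrix.mul_assoc,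
      ← Matrix.mul_assoc, mul_nonsing_inv _ hBu, Matrix.one_mul, Matrix.mul_assoc, h2,
      Matrix.mul_one]
  have h3 := hW.mul_mul_conjTranspose_same B⁻¹
  have h4 : (T + W).det = T.det * (1 + B⁻¹ * W * B⁻¹ᴴ).det := by
    rw [h1, hB, det_mul, det_mul, det_mul]; ring
  rw [h4, det_real hT.1, Complex.re_ofReal_mul, Complex.ofReal_re]
  exact le_mul_of_one_le_right (re_det_nonneg hT) (one_le_det h3)

lemma det_le_of_sub {T S : Matrix n n ℂ} (hT : T.PosSemidef) (h : (S - T).PosSemidef) :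
    T.det.re ≤ S.det.re := by
  simpa using det_mono hT h

lemma det_le_one {S : Matrix n n ℂ} (hS : S.PosSemidef) (h : ∀ i, S i i = 1) : S.det.re ≤ 1 := by
  have h1 := re_trace_eig hS.1
  have h2 : S.trace.re = Fintype.card n := by simp [Matrix.trace, h]
  rw [re_det_eig hS.1]
  calc ∏ i, hS.1.eigenvalues i ≤ ∏ i, Real.exp (hS.1.eigenvalues i - 1) :=
        Finset.prod_le_prod (fun i _ => hS.eigenvalues_nonneg i)
          fun i _ => by linarith [Real.add_one_le_exp (hS.1.eigenvalues i - 1)]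
    _ = 1 := by
      rw [← Real.exp_sum, Finset.sum_sub_distrib, ← h1, h2]
      simp

lemma hadamard {T : Matrix n n ℂ} (hT : T.PosDef) : T.det.re ≤ ∏ i, (T i i).re := by
  obtain ⟨d, hd⟩ : ∃ d : n → ℝ, d = fun i => (√((T i i).re))⁻¹ := ⟨_, rfl⟩
  have hpos := re_diag_pos hT
  have hd2 : ∀ i, d i * (T i i).re * d i = 1 := by
    intro i
    have := Real.mul_self_sqrt (hpos i).le
    have h2 := Real.sqrt_pos.2 (hpos i)
    rw [hd]
    field_simp
    linarith
  have h1 := hT.posSemidef.mul_mul_conjTranspose_same (diagonal fun i => (d i : ℂ))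
  have h2 := det_le_one h1 (fun i => by
    rw [diagonal_conjTranspose, mul_diagonal, diagonal_mul, diag_real hT.posSemidef i]
    simp only [Pi.star_apply, RCLike.star_def, Complex.conj_ofReal]
    exact_mod_cast hd2 i)
  rw [det_mul, det_mul, diagonal_conjTranspose, det_diagonal, det_diagonal, det_real hT.1] at h2
  simp only [Pi.star_apply, RCLike.star_def, Complex.conj_ofReal] at h2
  have h3 : (∏ i, d i) * T.det.re * ∏ i, d i ≤ 1 := by exact_mod_cast h2
  have h4 : (∏ i, d i) * (∏ i, (T i i).re) * ∏ i, d i = 1 := by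
    rw [← Finset.prod_mul_distrib, ← Finset.prod_mul_distrib]
    exact Finset.prod_eq_one fun i _ => hd2 i
  have h5 : 0 < ∏ i, d i := Finset.prod_pos fun i _ => by
    rw [hd]; exact inv_pos.2 (Real.sqrt_pos.2 (hpos i))
  have h6 : (∏ i, d i) * (∏ i, d i) * T.det.re ≤ (∏ i, d i) * (∏ i, d i) * ∏ i, (T i i).re := by
    linarith
  exact le_of_mul_le_mul_left h6 (mul_pos h5 h5)

lemma chol {N : ℕ} {Q : Matrix (Fin N) (Fin N) ℂ} (hQ : Q.PosDef) :
    ∃ G : Matrix (Fin N) (Fin N) ℂ, G.IsUpperTriangular ∧ Q⁻¹ = G * Gᴴ ∧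
      ∀ i, 1 ≤ Complex.normSq (G i i) * (Q i i).re := by
  obtain ⟨l, hl⟩ : ∃ l, l = LDL.lowerInv hQ := ⟨_, rfl⟩
  have hlt : ∀ i j, i < j → l i j = 0 := fun i j h => hl ▸ LDL.lowerInv_triangular hQ h
  have hlu : IsUnit l := hl ▸ isUnit_of_invertible _
  obtain ⟨D, hD⟩ : ∃ D : Fin N → ℂ, l * Q * lᴴ = diagonal D :=
    ⟨_, hl ▸ (LDL.diag_eq_lowerInv_conj hQ).symm⟩
  have hPD : (diagonal D).PosDef := hD ▸ (hlu.posDef_star_right_conjugate_iff.2 hQ)
  have hDr : ∀ i, D i = ((D i).re : ℂ) := fun i => by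
    simpa using diag_real hPD.posSemidef i
  have hDp : ∀ i, 0 < (D i).re := fun i => by simpa using re_diag_pos hPD i
  obtain ⟨d, hd⟩ : ∃ d : Fin N → ℝ, d = fun i => (√((D i).re))⁻¹ := ⟨_, rfl⟩
  have hd2 : ∀ i, d i * (D i).re * d i = 1 := by
    intro i
    have := Real.mul_self_sqrt (hDp i).le
    have h2 := Real.sqrt_pos.2 (hDp i)
    rw [hd]
    field_simp
    linarith
  obtain ⟨G, hG⟩ : ∃ G, G = lᴴ * diagonal fun i => (d i : ℂ) := ⟨_, rfl⟩
  have hGt : G.IsUpperTriangular := by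
    intro i j hij
    rw [hG, mul_diagonal, conjTranspose_apply, hlt j i hij]
    simp
  have h1 : Gᴴ * Q * G = 1 := by
    rw [hG, conjTranspose_mul, conjTranspose_conjTranspose, diagonal_conjTranspose]
    calc _ = diagonal (star fun i => (d i : ℂ)) * (l * Q * lᴴ) * diagonal fun i => (d i : ℂ) := by
          simp only [Matrix.mul_assoc]
      _ = 1 := by
        rw [hD, diagonal_mul_diagonal, diagonal_mul_diagonal, ← diagonal_one]
        congr 1
        ext i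
        rw [hDr i]
        simp only [Pi.star_apply, RCLike.star_def, Complex.conj_ofReal]
        exact_mod_cast hd2 i
  have h2 : G * (Gᴴ * Q) = 1 := mul_eq_one_comm.1 h1
  refine ⟨G, hGt, ?_, fun i => ?_⟩
  · exact inv_eq_left_inv (by rw [Matrix.mul_assoc, h2])
  · obtain ⟨F, hF⟩ : ∃ F, F = Gᴴ * Q := ⟨_, rfl⟩
    rw [← hF] at h1 h2
    have hinv : G⁻¹ = F := inv_eq_left_inv h1
    haveI : Invertible G := invertibleOfLeftInverse _ _ h1
    have hFt : F.IsUpperTriangular := hinv ▸ blockTriangular_inv_of_blockTriangular hGt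
    have h3 : Q = Fᴴ * F := by
      have : Fᴴ * Gᴴ = 1 := by rw [← conjTranspose_mul, h2, conjTranspose_one]
      rw [hF, ← Matrix.mul_assoc, ← hF, this, Matrix.one_mul]
    have h4 : F i i * G i i = 1 := by
      have := congrFun (congrFun h1 i) i
      rw [Matrix.mul_apply, Finset.sum_eq_single i] at this
      · simpa using this
      · intro k _ hk
        rcases lt_or_gt_of_ne hk with h | h
        · rw [hFt (show id k < id i from h), zero_mul]
        · rw [hGt (show id i < id k from h), mul_zero]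
      · simp
    have h5 : Complex.normSq (F i i) ≤ (Q i i).re := by
      rw [h3, Matrix.mul_apply, Complex.re_sum]
      have : ∀ k, (Fᴴ i k * F k i).re = Complex.normSq (F k i) := fun k => by
        rw [conjTranspose_apply, RCLike.star_def, ← Complex.normSq_eq_conj_mul_self,
          Complex.ofReal_re]
      simp only [this]
      exact Finset.single_le_sum (f := fun k => Complex.normSq (F k i))
        (fun k _ => Complex.normSq_nonneg _) (Finset.mem_univ i)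
    have h6 := congrArg Complex.normSq h4
    rw [map_mul, map_one] at h6
    nlinarith [Complex.normSq_nonneg (G i i)]

lemma tri_bound {N : ℕ} {P Γ : Matrix (Fin N) (Fin N) ℂ} (hP : P.PosDef)
    (hΓ : Γ.IsUpperTriangular) :
    ∏ i, (1 + Complex.normSq (Γ i i) / (P i i).re) ≤ (1 + Γᴴ * P⁻¹ * Γ).det.re := by
  have hpos := re_diag_pos hP
  obtain ⟨k, hk⟩ : ∃ k : Fin N → ℝ, k = fun i => 1 + Complex.normSq (Γ i i) / (P i i).re :=
    ⟨_, rfl⟩
  have hkp : ∀ i, 0 < k i := fun i => by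
    rw [hk]; have := hpos i; have := Complex.normSq_nonneg (Γ i i); positivity
  obtain ⟨t, ht⟩ : ∃ t : Fin N → ℂ, t = fun i => Γ i i / ((P i i).re : ℂ) := ⟨_, rfl⟩
  obtain ⟨τ, hτ⟩ : ∃ τ, τ = diagonal t := ⟨_, rfl⟩
  obtain ⟨K, hK⟩ : ∃ K, K = 1 + τᴴ * Γ := ⟨_, rfl⟩
  obtain ⟨J, hJ⟩ : ∃ J, J = 1 + τᴴ * P * τ := ⟨_, rfl⟩
  have hJp : J.PosDef := hJ ▸ PosDef.one.add_posSemidef (hP.posSemidef.conjTranspose_mul_mul_same τ)
  have hJu : IsUnit J.det := (isUnit_iff_isUnit_det _).1 hJp.isUnit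
  have hPu : IsUnit P.det := (isUnit_iff_isUnit_det _).1 hP.isUnit
  obtain ⟨Y, hY⟩ : ∃ Y, Y = J⁻¹ * K := ⟨_, rfl⟩
  have hJY : J * Y = K := by rw [hY, ← Matrix.mul_assoc, mul_nonsing_inv _ hJu, Matrix.one_mul]
  have hPP : P⁻¹ * P = 1 := nonsing_inv_mul _ hPu
  have hPP' : P * P⁻¹ = 1 := mul_nonsing_inv _ hPu
  have hid : 1 + Γᴴ * P⁻¹ * Γ - Kᴴ * J⁻¹ * K =
      (1 - Y)ᴴ * (1 - Y) + (Γ - P * τ * Y)ᴴ * P⁻¹ * (Γ - P * τ * Y) := by
    have e1 : (Γ - P * τ * Y)ᴴ * P⁻¹ * (Γ - P * τ * Y) =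
        Γᴴ * P⁻¹ * Γ - Γᴴ * τ * Y - Yᴴ * τᴴ * Γ + Yᴴ * (τᴴ * P * τ) * Y := by
      rw [conjTranspose_sub, conjTranspose_mul, conjTranspose_mul, hP.1.eq]
      have a1 : P⁻¹ * (P * (τ * Y)) = τ * Y := by rw [← Matrix.mul_assoc, hPP, Matrix.one_mul]
      have a2 : P * (P⁻¹ * Γ) = Γ := by rw [← Matrix.mul_assoc, hPP', Matrix.one_mul]
      simp only [Matrix.sub_mul, Matrix.mul_sub, Matrix.mul_assoc, a1, a2]
      abel
    have e2 : Yᴴ * (τᴴ * P * τ) * Y = Yᴴ * K - Yᴴ * Y := by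
      rw [← hJY, hJ]
      simp only [Matrix.add_mul, Matrix.mul_add, Matrix.mul_assoc, Matrix.one_mul]
      abel
    rw [e1, e2, Matrix.mul_assoc Kᴴ, ← hY, hK]
    simp only [conjTranspose_add, conjTranspose_sub, conjTranspose_mul, conjTranspose_one,
      conjTranspose_conjTranspose, Matrix.add_mul, Matrix.mul_add, Matrix.sub_mul, Matrix.mul_sub,
      Matrix.mul_assoc, Matrix.one_mul, Matrix.mul_one]
    abel
  have h1 := det_le_of_sub (hJp.inv.posSemidef.conjTranspose_mul_mul_same K)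
    (hid ▸ (posSemidef_conjTranspose_mul_self _).add
      (hP.inv.posSemidef.conjTranspose_mul_mul_same _))
  have hPr := diag_real hP.posSemidef
  have hKd : K.det = ((∏ i, k i : ℝ) : ℂ) := by
    have hKt : K.IsUpperTriangular := by
      rw [hK, hτ, diagonal_conjTranspose]
      exact blockTriangular_one.add ((blockTriangular_diagonal _).mul hΓ)
    rw [det_of_isUpperTriangular hKt]
    push_cast
    refine Finset.prod_congr rfl fun i _ => ?_
    rw [hK, hτ, diagonal_conjTranspose, Matrix.add_apply, diagonal_mul, ht, hk]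
    simp only [one_apply_eq, Pi.star_apply, RCLike.star_def, map_div₀, Complex.conj_ofReal]
    push_cast
    rw [Complex.normSq_eq_conj_mul_self]
    ring
  have hJd : J.det.re ≤ ∏ i, k i := by
    refine (hadamard hJp).trans (le_of_eq (Finset.prod_congr rfl fun i _ => ?_))
    have : J i i = (k i : ℂ) := by
      rw [hJ, hτ, diagonal_conjTranspose, Matrix.add_apply, mul_diagonal, diagonal_mul, ht, hk,
        hPr i]
      simp only [one_apply_eq, Pi.star_apply, RCLike.star_def, map_div₀, Complex.conj_ofReal,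
        Complex.ofReal_re]
      push_cast
      rw [Complex.normSq_eq_conj_mul_self]
      have : ((P i i).re : ℂ) ≠ 0 := by exact_mod_cast (hpos i).ne'
      field_simp
    rw [this, Complex.ofReal_re]
  have hJ0 := re_det_pos hJp
  have h2 : (Kᴴ * J⁻¹ * K).det.re = (∏ i, k i) * (J.det.re)⁻¹ * ∏ i, k i := by
    rw [det_mul, det_mul, det_conjTranspose, det_nonsing_inv, Ring.inverse_eq_inv', hKd,
      det_real hJp.1]
    simp only [RCLike.star_def, Complex.conj_ofReal, Complex.ofReal_re]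
    rw [← Complex.ofReal_inv, ← Complex.ofReal_mul, ← Complex.ofReal_mul, Complex.ofReal_re]
  have h3 : 0 < ∏ i, k i := Finset.prod_pos fun i _ => hkp i
  have h4 : 1 ≤ (∏ i, k i) * (J.det.re)⁻¹ := by
    rw [← div_eq_mul_inv, one_le_div hJ0]; exact hJd
  rw [h2] at h1
  have h5 : ∏ i, (1 + Complex.normSq (Γ i i) / (P i i).re) = ∏ i, k i := by rw [hk]
  rw [h5]
  nlinarith

lemma pinch_fin {N : ℕ} {P Q : Matrix (Fin N) (Fin N) ℂ} (hP : P.PosDef) (hQ : Q.PosDef)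
    (σ : Fin N → ℝ) :
    P.det.re * ∏ i, (1 + σ i ^ 2 / ((P i i).re * (Q i i).re)) ≤
      (P + diagonal (fun i => (σ i : ℂ)) * Q⁻¹ * diagonal (fun i => (σ i : ℂ))).det.re := by
  obtain ⟨G, hG1, hG2, hG3⟩ := chol hQ
  obtain ⟨Γ, hΓ⟩ : ∃ Γ, Γ = diagonal (fun i => (σ i : ℂ)) * G := ⟨_, rfl⟩
  have hΓt : Γ.IsUpperTriangular := hΓ ▸ (blockTriangular_diagonal _).mul hG1
  have hPu : IsUnit P.det := (isUnit_iff_isUnit_det _).1 hP.isUnit
  have h1 : P + diagonal (fun i => (σ i : ℂ)) * Q⁻¹ * diagonal (fun i => (σ i : ℂ)) =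
      P * (1 + P⁻¹ * Γ * Γᴴ) := by
    rw [Matrix.mul_add, Matrix.mul_one, ← Matrix.mul_assoc, ← Matrix.mul_assoc,
      mul_nonsing_inv _ hPu, Matrix.one_mul, hΓ, hG2, conjTranspose_mul, diagonal_conjTranspose]
    have : (star fun i => (σ i : ℂ)) = fun i => (σ i : ℂ) := by ext i; simp
    rw [this]
    simp only [Matrix.mul_assoc]
  rw [h1, det_mul, det_one_add_mul_comm, ← Matrix.mul_assoc, det_real hP.1, Complex.re_ofReal_mul,
    Complex.ofReal_re]
  refine mul_le_mul_of_nonneg_left (le_trans ?_ (tri_bound hP hΓt)) (re_det_pos hP).le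
  refine Finset.prod_le_prod (fun i _ => ?_) fun i _ => ?_
  · have := re_diag_pos hP i; have := re_diag_pos hQ i; positivity
  · have hp := re_diag_pos hP i
    have hq := re_diag_pos hQ i
    rw [hΓ, diagonal_mul, map_mul, Complex.normSq_ofReal, add_le_add_iff_left,
      div_le_div_iff₀ (by positivity) hp]
    have := hG3 i
    nlinarith [mul_nonneg (sq_nonneg (σ i)) hp.le]

lemma pinch {P Q : Matrix n n ℂ} (hP : P.PosDef) (hQ : Q.PosDef) (σ : n → ℝ) :
    P.det.re * ∏ i, (1 + σ i ^ 2 / ((P i i).re * (Q i i).re)) ≤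
      (P + diagonal (fun i => (σ i : ℂ)) * Q⁻¹ * diagonal (fun i => (σ i : ℂ))).det.re := by
  obtain ⟨e⟩ : Nonempty (Fin (Fintype.card n) ≃ n) := ⟨(Fintype.equivFin n).symm⟩
  have := pinch_fin (hP.submatrix e.injective) (hQ.submatrix e.injective) (fun i => σ (e i))
  have h2 : diagonal (fun i => (σ (e i) : ℂ)) = (diagonal (fun i => (σ i : ℂ))).submatrix e e := by
    rw [submatrix_diagonal_equiv]; rfl
  have h3 : ∀ A B : Matrix n n ℂ, A.submatrix e e + B.submatrix e e = (A + B).submatrix e e :=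
    fun _ _ => rfl
  rw [h2, inv_submatrix_equiv, submatrix_mul_equiv, submatrix_mul_equiv, h3,
    det_submatrix_equiv_self, det_submatrix_equiv_self] at this
  simp only [submatrix_apply] at this
  rwa [Equiv.prod_comp e (fun i => 1 + σ i ^ 2 / ((P i i).re * (Q i i).re))] at this

lemma one_add_posDef {D : Matrix n n ℂ} (hD : D.PosSemidef) {c : ℝ} (hc : 0 ≤ c) :
    (1 + (c : ℂ) • D).PosDef :=
  PosDef.one.add_posSemidef (hD.smul (by exact_mod_cast hc))

/-- partial isometry part of the singular value decomposition -/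
lemma exists_svd (A : Matrix n m ℂ) {lam : n → ℝ} (hl : ∀ i, 0 ≤ lam i)
    (hA : A * Aᴴ = diagonal fun i => (lam i : ℂ)) :
    ∃ (V : Matrix m n ℂ) (Pr : Matrix n n ℂ), Vᴴ * V = Pr ∧ V * Pr = V ∧ Pr * Pr = Pr ∧ Prᴴ = Pr ∧
      diagonal (fun i => ((√(lam i) : ℝ) : ℂ)) * Vᴴ = A ∧
      diagonal (fun i => ((√(lam i) : ℝ) : ℂ)) * Pr = diagonal (fun i => ((√(lam i) : ℝ) : ℂ)) := by
  obtain ⟨D, hD⟩ : ∃ D : Matrix n n ℂ, D = diagonal fun i => (((√(lam i))⁻¹ : ℝ) : ℂ) := ⟨_, rfl⟩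
  obtain ⟨π, hπ⟩ : ∃ π : n → ℝ, π = fun i => if lam i = 0 then 0 else 1 := ⟨_, rfl⟩
  have hDH : Dᴴ = D := by
    rw [hD, diagonal_conjTranspose]; congr 1; ext i; simp
  have a1 : ∀ i, (√(lam i))⁻¹ * lam i * (√(lam i))⁻¹ = π i := by
    intro i
    rw [hπ]
    by_cases h : lam i = 0
    · simp [h]
    · have h1 := Real.mul_self_sqrt (hl i)
      have h2 : √(lam i) ≠ 0 := by rwa [Ne, Real.sqrt_eq_zero (hl i)]
      simp only [h, if_false]
      field_simp
      linarith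
  have a2 : ∀ i, √(lam i) * (√(lam i))⁻¹ = π i := by
    intro i
    rw [hπ]
    by_cases h : lam i = 0
    · simp [h]
    · have h2 : √(lam i) ≠ 0 := by rwa [Ne, Real.sqrt_eq_zero (hl i)]
      simp only [h, if_false]
      field_simp
  have a3 : ∀ i, (√(lam i))⁻¹ * π i = (√(lam i))⁻¹ := by
    intro i
    rw [hπ]
    by_cases h : lam i = 0 <;> simp [h]
  have a4 : ∀ i, √(lam i) * π i = √(lam i) := by
    intro i
    rw [hπ]
    by_cases h : lam i = 0 <;> simp [h]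
  have a5 : ∀ i, π i * π i = π i := by
    intro i
    rw [hπ]
    by_cases h : lam i = 0 <;> simp [h]
  have a6 : ∀ i, (1 - π i) * lam i * (1 - π i) = 0 := by
    intro i
    rw [hπ]
    by_cases h : lam i = 0 <;> simp [h]
  refine ⟨Aᴴ * D, diagonal fun i => (π i : ℂ), ?_, ?_, ?_, ?_, ?_, ?_⟩
  · rw [conjTranspose_mul, conjTranspose_conjTranspose, hDH, Matrix.mul_assoc,
      ← Matrix.mul_assoc A, hA, hD, diagonal_mul_diagonal, diagonal_mul_diagonal]
    congr 1; ext i; rw [← mul_assoc]; exact_mod_cast a1 i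
  · rw [Matrix.mul_assoc, hD, diagonal_mul_diagonal]
    congr 2; ext i; exact_mod_cast a3 i
  · rw [diagonal_mul_diagonal]; congr 1; ext i; exact_mod_cast a5 i
  · rw [diagonal_conjTranspose]; congr 1; ext i; simp
  · rw [conjTranspose_mul, conjTranspose_conjTranspose, hDH, ← Matrix.mul_assoc, hD,
      diagonal_mul_diagonal]
    have b1 : (fun i => ((√(lam i) : ℝ) : ℂ) * (((√(lam i))⁻¹ : ℝ) : ℂ)) = fun i => (π i : ℂ) := by
      ext i; exact_mod_cast a2 i
    rw [b1]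
    have b2 : (diagonal fun i => ((1 - π i : ℝ) : ℂ)) * A = 0 := by
      rw [← self_mul_conjTranspose_eq_zero, conjTranspose_mul, Matrix.mul_assoc,
        ← Matrix.mul_assoc A, hA, diagonal_conjTranspose, diagonal_mul_diagonal,
        diagonal_mul_diagonal, ← diagonal_zero]
      congr 1; ext i
      simp only [Pi.star_apply, RCLike.star_def, Complex.conj_ofReal]
      rw [← mul_assoc]; exact_mod_cast a6 i
    have b3 : (diagonal fun i => ((1 - π i : ℝ) : ℂ)) = 1 - diagonal fun i => (π i : ℂ) := by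
      rw [← diagonal_one, diagonal_sub]; congr 1; ext i; push_cast; rfl
    rw [b3, Matrix.sub_mul, Matrix.one_mul, sub_eq_zero] at b2
    exact b2.symm
  · rw [diagonal_mul_diagonal]; congr 1; ext i; exact_mod_cast a4 i

lemma one_sub_proj {E : Matrix n n ℂ} (h1 : Eᴴ = E) (h2 : E * E = E) : (1 - E).PosSemidef := by
  have : 1 - E = (1 - E)ᴴ * (1 - E) := by
    rw [conjTranspose_sub, conjTranspose_one, h1, Matrix.sub_mul, Matrix.mul_sub, Matrix.mul_sub,
      h2]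
    simp
  rw [this]
  exact posSemidef_conjTranspose_mul_self _

lemma compress {A : Matrix n m ℂ} {V : Matrix m n ℂ} {Pr S : Matrix n n ℂ} {Q : Matrix m m ℂ}
    {Q' : Matrix n n ℂ} (hQ : Q.PosDef) (hQ' : Q'.PosDef) (h1 : Vᴴ * V = Pr) (h3 : Pr * Pr = Pr)
    (h4 : Prᴴ = Pr) (h5 : S * Vᴴ = A) (h6 : S * Pr = S) (hS : Sᴴ = S)
    (h7 : Vᴴ * Q * V = Q' - (1 - Pr)) : (A * Q⁻¹ * Aᴴ - S * Q'⁻¹ * S).PosSemidef := by
  have hQu : IsUnit Q.det := (isUnit_iff_isUnit_det _).1 hQ.isUnit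
  have hQu' : IsUnit Q'.det := (isUnit_iff_isUnit_det _).1 hQ'.isUnit
  obtain ⟨W, hW⟩ : ∃ W, W = Q'⁻¹ * S := ⟨_, rfl⟩
  have hWH : Wᴴ = S * Q'⁻¹ := by rw [hW, conjTranspose_mul, hS, hQ'.inv.1.eq]
  have hQW : Q' * W = S := by rw [hW, ← Matrix.mul_assoc, mul_nonsing_inv _ hQu', Matrix.one_mul]
  have hAV : A * V = S := by rw [← h5, Matrix.mul_assoc, h1, h6]
  have hAV' : Vᴴ * Aᴴ = S := by rw [← conjTranspose_mul, hAV, hS]
  have hid : A * Q⁻¹ * Aᴴ - S * Q'⁻¹ * S =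
      (Q⁻¹ * Aᴴ - V * W)ᴴ * Q * (Q⁻¹ * Aᴴ - V * W) + Wᴴ * (1 - Pr) * W := by
    have a1 : ∀ Z : Matrix m n ℂ, Q⁻¹ * (Q * Z) = Z := fun Z => by
      rw [← Matrix.mul_assoc, nonsing_inv_mul _ hQu, Matrix.one_mul]
    have a2 : ∀ Z : Matrix m n ℂ, Q * (Q⁻¹ * Z) = Z := fun Z => by
      rw [← Matrix.mul_assoc, mul_nonsing_inv _ hQu, Matrix.one_mul]
    have e1 : (Q⁻¹ * Aᴴ - V * W)ᴴ * Q * (Q⁻¹ * Aᴴ - V * W) =
        A * Q⁻¹ * Aᴴ - A * V * W - Wᴴ * (Vᴴ * Aᴴ) + Wᴴ * (Vᴴ * Q * V) * W := by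
      rw [conjTranspose_sub, conjTranspose_mul, conjTranspose_mul, hQ.inv.1.eq,
        conjTranspose_conjTranspose]
      simp only [Matrix.sub_mul, Matrix.mul_sub, Matrix.mul_assoc, a1, a2]
      abel
    have e2 : S * W = S * Q'⁻¹ * S := by rw [hW, Matrix.mul_assoc]
    have e3 : Wᴴ * S = S * Q'⁻¹ * S := by rw [hWH]
    have e4 : Wᴴ * (Q' - (1 - Pr)) * W = S * Q'⁻¹ * S - Wᴴ * (1 - Pr) * W := by
      rw [Matrix.mul_sub, Matrix.sub_mul, Matrix.mul_assoc Wᴴ Q', hQW, e3]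
    rw [e1, hAV, hAV', h7, e2, e3, e4]
    abel
  rw [hid]
  exact (hQ.posSemidef.conjTranspose_mul_mul_same _).add
    ((one_sub_proj h4 h3).conjTranspose_mul_mul_same _)

lemma re_trace_nonneg {M : Matrix n n ℂ} (hM : M.PosSemidef) : 0 ≤ M.trace.re :=
  (Complex.le_def.1 hM.trace_nonneg).1

lemma re_trace_eq (M : Matrix n n ℂ) : M.trace.re = ∑ i, (M i i).re := by
  rw [Matrix.trace, Complex.re_sum]; rfl

lemma det_path (A : Matrix n m ℂ) {D1 : Matrix n n ℂ} {D2 : Matrix m m ℂ} (h1 : D1.PosSemidef)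
    (h2 : D2.PosSemidef) :
    ∃ d e : n → ℝ, (∀ i, 0 ≤ d i) ∧ (∀ i, 0 ≤ e i) ∧ ∑ i, d i ≤ D1.trace.re ∧
      ∑ i, e i ≤ D2.trace.re ∧ ∀ c : ℝ, 0 < c →
        (1 + (c : ℂ) • D1).det.re *
          ∏ i, (1 + c * (posSemidef_self_mul_conjTranspose A).1.eigenvalues i /
            ((1 + c * d i) * (1 + c * e i))) ≤
        (1 + (c : ℂ) • D1 + (c : ℂ) • (A * (1 + (c : ℂ) • D2)⁻¹ * Aᴴ)).det.re := by
  have hX := posSemidef_self_mul_conjTranspose A
  obtain ⟨U, hU1, hU2, hU3⟩ := spec hX.1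
  have hl := hX.eigenvalues_nonneg
  generalize hX.1.eigenvalues = lam at *
  have hA' : (Uᴴ * A) * (Uᴴ * A)ᴴ = diagonal fun i => (lam i : ℂ) := by
    rw [conjTranspose_mul, conjTranspose_conjTranspose, Matrix.mul_assoc, ← Matrix.mul_assoc A,
      hU3]
    simp only [← Matrix.mul_assoc, hU2, Matrix.one_mul]
    rw [Matrix.mul_assoc, hU2, Matrix.mul_one]
  obtain ⟨V, Pr, v1, v2, v3, v4, v5, v6⟩ := exists_svd (Uᴴ * A) hl hA'
  have g1 := h1.conjTranspose_mul_mul_same U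
  have g2 := h2.conjTranspose_mul_mul_same V
  refine ⟨fun i => ((Uᴴ * D1 * U) i i).re, fun i => ((Vᴴ * D2 * V) i i).re,
    re_diag_nonneg g1, re_diag_nonneg g2, ?_, ?_, fun c hc => ?_⟩
  · rw [← re_trace_eq, trace_mul_cycle, hU1, Matrix.one_mul]
  · rw [← re_trace_eq]
    obtain ⟨B, hB⟩ := exists_factor h2
    have hE : (1 - V * Vᴴ).PosSemidef := one_sub_proj (by simp)
      (by rw [Matrix.mul_assoc, ← Matrix.mul_assoc Vᴴ, v1, ← Matrix.mul_assoc, v2])
    have := re_trace_nonneg (hE.conjTranspose_mul_mul_same B)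
    rw [trace_mul_cycle, ← hB, Matrix.mul_sub, trace_sub, Matrix.mul_one, Complex.sub_re,
      ← Matrix.mul_assoc, trace_mul_cycle] at this
    linarith
  · have hP := one_add_posDef g1 hc.le
    have hQ' := one_add_posDef g2 hc.le
    have hQ := one_add_posDef h2 hc.le
    have hS : (diagonal fun i => ((√(lam i) : ℝ) : ℂ))ᴴ = diagonal fun i => ((√(lam i) : ℝ) : ℂ) := by
      rw [diagonal_conjTranspose]; congr 1; ext i; simp
    have hc1 := compress hQ hQ' v1 v3 v4 v5 v6 hS (by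
      rw [Matrix.mul_add, Matrix.add_mul, Matrix.mul_one, v1, Matrix.mul_smul, Matrix.smul_mul]
      abel)
    have hp := pinch hP hQ' fun i => √c * √(lam i)
    have hd : (diagonal fun i => ((√c * √(lam i) : ℝ) : ℂ)) =
        ((√c : ℝ) : ℂ) • diagonal fun i => ((√(lam i) : ℝ) : ℂ) := by
      rw [← diagonal_smul]; congr 1; ext i; simp
    have hcc : ((√c : ℝ) : ℂ) * ((√c : ℝ) : ℂ) = c := by exact_mod_cast Real.mul_self_sqrt hc.le
    rw [hd, Matrix.smul_mul, Matrix.smul_mul, Matrix.mul_smul, smul_smul, hcc] at hp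
    have hUU : Uᴴ * Uᴴᴴ = 1 := by rw [conjTranspose_conjTranspose, hU2]
    have k1 : (1 + (c : ℂ) • (Uᴴ * D1 * U)).det = (1 + (c : ℂ) • D1).det := by
      rw [← det_conj (M := 1 + (c : ℂ) • D1) hUU, conjTranspose_conjTranspose, Matrix.mul_add,
        Matrix.add_mul, Matrix.mul_one, hU2, Matrix.mul_smul, Matrix.smul_mul]
    have k2 : (1 + (c : ℂ) • (Uᴴ * D1 * U) +
        (c : ℂ) • (Uᴴ * A * (1 + (c : ℂ) • D2)⁻¹ * (Uᴴ * A)ᴴ)).det =
        (1 + (c : ℂ) • D1 + (c : ℂ) • (A * (1 + (c : ℂ) • D2)⁻¹ * Aᴴ)).det := by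
      rw [← det_conj (M := 1 + (c : ℂ) • D1 + (c : ℂ) • (A * (1 + (c : ℂ) • D2)⁻¹ * Aᴴ)) hUU,
        conjTranspose_mul, conjTranspose_conjTranspose]
      simp only [Matrix.mul_add, Matrix.add_mul, Matrix.mul_one, hU2, Matrix.mul_smul,
        Matrix.smul_mul, Matrix.mul_assoc]
    rw [← k1, ← k2]
    refine le_trans (le_of_eq ?_) (hp.trans (det_le_of_sub ?_ ?_))
    · congr 1
      refine Finset.prod_congr rfl fun i _ => ?_
      rw [mul_pow, Real.sq_sqrt hc.le, Real.sq_sqrt (hl i)]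
      simp
    · refine hP.posSemidef.add (PosSemidef.smul ?_ (by exact_mod_cast hc.le))
      have := hQ'.inv.posSemidef.conjTranspose_mul_mul_same
        (diagonal fun i => ((√(lam i) : ℝ) : ℂ))
      rwa [hS] at this
    · rw [add_sub_add_left_eq_sub, ← smul_sub]
      exact hc1.smul (by exact_mod_cast hc.le)

lemma det_three {k l : Type*} [Fintype k] [Fintype l] [DecidableEq l] (A : Matrix n m ℂ)
    (B : Matrix n k ℂ) (C : Matrix l m ℂ) {c : ℝ} (hc : 0 ≤ c) :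
    (1 + (c : ℂ) • fromBlocks (A * Aᴴ + B * Bᴴ) (A * Cᴴ) (C * Aᴴ) (C * Cᴴ)).det =
      (1 + (c : ℂ) • (C * Cᴴ)).det *
        (1 + (c : ℂ) • (B * Bᴴ) + (c : ℂ) • (A * (1 + (c : ℂ) • (Cᴴ * C))⁻¹ * Aᴴ)).det := by
  have hD := one_add_posDef (posSemidef_self_mul_conjTranspose C) hc
  have hE := one_add_posDef (posSemidef_conjTranspose_mul_self C) hc
  have hDu : IsUnit (1 + (c : ℂ) • (C * Cᴴ)).det := (isUnit_iff_isUnit_det _).1 hD.isUnit
  have : Invertible (1 + (c : ℂ) • (C * Cᴴ)) := invertibleOfIsUnitDet _ hDu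
  rw [← fromBlocks_one, fromBlocks_smul, fromBlocks_add, det_fromBlocks₂₂, invOf_eq_nonsing_inv]
  congr 2
  obtain ⟨R, hR⟩ : ∃ R, R = (1 + (c : ℂ) • (C * Cᴴ))⁻¹ := ⟨_, rfl⟩
  have h1 : (1 + (c : ℂ) • (C * Cᴴ)) * R = 1 := hR ▸ mul_nonsing_inv _ hDu
  have h2 : (1 + (c : ℂ) • (Cᴴ * C))⁻¹ = 1 - (c : ℂ) • (Cᴴ * R * C) := by
    apply inv_eq_right_inv
    have h3 : (c : ℂ) • (C * (Cᴴ * R)) = 1 - R := by
      rw [← h1, Matrix.add_mul, Matrix.one_mul, Matrix.smul_mul, Matrix.mul_assoc]; abel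
    have h4 : ((c : ℂ) • (Cᴴ * C)) * ((c : ℂ) • (Cᴴ * R * C)) =
        (c : ℂ) • (Cᴴ * C) - (c : ℂ) • (Cᴴ * R * C) := by
      rw [← smul_sub, Matrix.smul_mul]
      congr 1
      calc Cᴴ * C * (c : ℂ) • (Cᴴ * R * C) = Cᴴ * ((c : ℂ) • (C * (Cᴴ * R))) * C := by
            simp only [Matrix.mul_smul, Matrix.smul_mul, Matrix.mul_assoc]
        _ = _ := by rw [h3, Matrix.mul_sub, Matrix.sub_mul, Matrix.mul_one]
    rw [Matrix.add_mul, Matrix.one_mul, Matrix.mul_sub, Matrix.mul_one, h4]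
    abel
  rw [← hR, h2]
  simp only [zero_add, Matrix.mul_sub, Matrix.sub_mul, Matrix.mul_one, Matrix.smul_mul,
    Matrix.mul_smul, smul_sub, smul_add, Matrix.mul_assoc]
  abel

end Vale.Agent.P358
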