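import Vale.Agent.P358.Rep
import Vale.Agent.P358.Det

open Matrix Finset Real
open scoped ComplexOrder

namespace Vale.Agent.P358

variable {n m : Type*} [Fintype n] [DecidableEq n] [Fintype m] [DecidableEq m]

/-- unnormalized entropy in nats -/
noncomputable def H (M : Matrix n n ℂ) : ℝ :=
  if h : M.IsHermitian then ∑ i, negMulLog (h.eigenvalues i) else 0

lemma H_eq {M : Matrix n n ℂ} (h : M.IsHermitian) : H M = ∑ i, negMulLog (h.eigenvalues i) := by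
  rw [H, dif_pos h]

lemma rep_family {ι : Type*} [Fintype ι] {μ : ι → ℝ} (hμ : ∀ i, 0 ≤ μ i) :
    Rep (fun u => Real.log (∏ i, (1 + u⁻¹ * μ i))) (∑ i, μ i) (∑ i, negMulLog (μ i)) := by
  refine (Rep.sum Finset.univ fun i _ => Rep.base (hμ i)).congr (fun u hu => ?_) rfl rfl
  rw [Real.log_prod fun i _ => by have := hμ i; positivity]
  exact Finset.sum_congr rfl fun i _ => by rw [div_eq_inv_mul]

lemma rep_mat {M : Matrix n n ℂ} (hM : M.PosSemidef) :
    Rep (fun u => Real.log (1 + ((u⁻¹ : ℝ) : ℂ) • M).det.re) M.trace.re (H M) :=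
  (rep_family hM.eigenvalues_nonneg).congr
    (fun u _ => by rw [det_one_add_eig hM.1, Complex.ofReal_re]) (re_trace_eig hM.1) (H_eq hM.1)

lemma H_eq_of_det {ι : Type*} [Fintype ι] {M : Matrix n n ℂ} (hM : M.PosSemidef) {μ : ι → ℝ}
    (hμ : ∀ i, 0 ≤ μ i) (ht : M.trace.re = ∑ i, μ i)
    (hd : ∀ c : ℝ, 0 < c → (1 + (c : ℂ) • M).det.re = ∏ i, (1 + c * μ i)) :
    H M = ∑ i, negMulLog (μ i) :=
  (rep_mat hM).eq (rep_family hμ) ht fun u hu => by rw [hd _ (inv_pos.2 hu)]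

lemma H_congr {M : Matrix n n ℂ} {M' : Matrix m m ℂ} (hM : M.PosSemidef) (hM' : M'.PosSemidef)
    (ht : M.trace = M'.trace)
    (hd : ∀ c : ℝ, 0 < c → (1 + (c : ℂ) • M).det = (1 + (c : ℂ) • M').det) : H M = H M' :=
  (rep_mat hM).eq (rep_mat hM') (by rw [ht]) fun u hu => by rw [hd _ (inv_pos.2 hu)]

lemma trace_submatrix_equiv (M : Matrix n n ℂ) (e : m ≃ n) : (M.submatrix e e).trace = M.trace := by
  simp only [Matrix.trace, Matrix.diag, submatrix_apply]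
  exact Equiv.sum_comp e fun i => M i i

lemma H_submatrix {M : Matrix n n ℂ} (hM : M.PosSemidef) (e : m ≃ n) :
    H (M.submatrix e e) = H M := by
  refine H_congr (hM.submatrix e) hM (trace_submatrix_equiv M e) fun c _ => ?_
  rw [← det_submatrix_equiv_self e (1 + (c : ℂ) • M), ← submatrix_one_equiv e]
  rfl

lemma H_smul {M : Matrix n n ℂ} (hM : M.PosSemidef) {s : ℝ} (hs : 0 ≤ s) :
    H ((s : ℂ) • M) = s * H M + M.trace.re * negMulLog s := by
  rw [H_eq_of_det (hM.smul (by exact_mod_cast hs)) (μ := fun i => s * hM.1.eigenvalues i)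
    (fun i => mul_nonneg hs (hM.eigenvalues_nonneg i))
    (by rw [trace_smul, smul_eq_mul, Complex.re_ofReal_mul, re_trace_eig hM.1, Finset.mul_sum])
    (fun c _ => by
      rw [smul_smul, ← Complex.ofReal_mul, det_one_add_eig hM.1, Complex.ofReal_re]
      exact Finset.prod_congr rfl fun i _ => by ring),
    H_eq hM.1, re_trace_eig hM.1, Finset.mul_sum, Finset.sum_mul, ← Finset.sum_add_distrib]
  exact Finset.sum_congr rfl fun i _ => by rw [Real.negMulLog_mul]; ring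

lemma H_smul' {M : Matrix n n ℂ} (hM : M.PosSemidef) {s : ℝ} (hs : 0 ≤ s) :
    H ((s : ℂ) • M) - negMulLog (s * M.trace.re) = s * (H M - negMulLog M.trace.re) := by
  rw [H_smul hM hs, Real.negMulLog_mul]; ring

lemma H_conj {U : Matrix n n ℂ} (hU : U * Uᴴ = 1) {μ : n → ℝ} (hμ : ∀ i, 0 ≤ μ i) :
    H (U * diagonal (fun i => (μ i : ℂ)) * Uᴴ) = ∑ i, negMulLog (μ i) := by
  have hD : (diagonal (fun i => (μ i : ℂ))).PosSemidef :=
    PosSemidef.diagonal fun i => by simpa using hμ i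
  refine H_eq_of_det (hD.mul_mul_conjTranspose_same U) hμ ?_ fun c _ => ?_
  · rw [trace_mul_cycle, mul_eq_one_comm.1 hU, Matrix.one_mul, trace_diagonal, Complex.re_sum]
    simp
  · rw [det_one_add_conj hU, Complex.ofReal_re]

lemma H_le_diag {M : Matrix n n ℂ} (hM : M.PosSemidef) : H M ≤ ∑ i, negMulLog (M i i).re := by
  refine (rep_mat hM).le (rep_family (re_diag_nonneg hM)) (re_trace_eq M) fun u hu => ?_
  have hP := one_add_posDef hM (inv_pos.2 hu).le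
  refine Real.log_le_log (re_det_pos hP) ((hadamard hP).trans (le_of_eq ?_))
  refine Finset.prod_congr rfl fun i _ => ?_
  rw [Matrix.add_apply, Matrix.smul_apply, one_apply_eq, smul_eq_mul, Complex.add_re,
    Complex.re_ofReal_mul, Complex.one_re]

lemma ent_path {k l : Type*} [Fintype k] [DecidableEq k] [Fintype l] [DecidableEq l]
    (A : Matrix n m ℂ) {D1 : Matrix n n ℂ} {D2 : Matrix m m ℂ} (h1 : D1.PosSemidef)
    (h2 : D2.PosSemidef) {M : Matrix k k ℂ} {W : Matrix l l ℂ} (hM : M.PosSemidef)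
    (hW : W.PosSemidef) (ht : M.trace = W.trace + D1.trace + (A * Aᴴ).trace)
    (hd : ∀ c : ℝ, 0 < c → (1 + (c : ℂ) • M).det = (1 + (c : ℂ) • W).det *
      (1 + (c : ℂ) • D1 + (c : ℂ) • (A * (1 + (c : ℂ) • D2)⁻¹ * Aᴴ)).det) :
    H W + H D1 + H (A * Aᴴ) + Phi (A * Aᴴ).trace.re D1.trace.re D2.trace.re ≤ H M := by
  obtain ⟨d, e, hd0, he0, hd1, he1, hdet⟩ := det_path A h1 h2
  have hX := posSemidef_self_mul_conjTranspose A
  have hl := hX.eigenvalues_nonneg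
  have hR := ((rep_mat hW).add (rep_mat h1)).add
    (Rep.sum Finset.univ fun i _ => rep_path (hl i) (hd0 i) (he0 i))
  have h3 := hR.le (rep_mat hM) (by rw [ht, ← re_trace_eig hX.1]; simp) (fun u hu => by
    have hc := inv_pos.2 hu
    have a1 := re_det_pos (one_add_posDef hW hc.le)
    have a2 := re_det_pos (one_add_posDef h1 hc.le)
    have a3 : ∀ i, 0 < 1 + u * hX.1.eigenvalues i / ((u + d i) * (u + e i)) := fun i => by
      have := hl i; have := hd0 i; have := he0 i; positivity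
    rw [← Real.log_prod fun i _ => (a3 i).ne', ← Real.log_mul a1.ne' a2.ne',
      ← Real.log_mul (mul_pos a1 a2).ne' (Finset.prod_pos fun i _ => a3 i).ne']
    refine Real.log_le_log (mul_pos (mul_pos a1 a2) (Finset.prod_pos fun i _ => a3 i)) ?_
    rw [hd _ hc, det_real (one_add_posDef hW hc.le).1, Complex.re_ofReal_mul, Complex.ofReal_re,
      mul_assoc]
    refine mul_le_mul_of_nonneg_left (le_trans (le_of_eq ?_) (hdet _ hc)) a1.le
    congr 1
    refine Finset.prod_congr rfl fun i _ => ?_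
    have := hd0 i; have := he0 i
    field_simp)
  have h4 := Phi_sum Finset.univ (fun i _ => hl i) (fun i _ => hd0 i) (fun i _ => he0 i)
    (re_trace_eig hX.1).symm hd1 he1
  rw [Finset.sum_add_distrib, ← H_eq hX.1] at h3
  linarith

lemma H_add {M N : Matrix n n ℂ} (hM : M.PosSemidef) (hN : N.PosSemidef) :
    H M + H N - Bin M.trace.re N.trace.re ≤ H (M + N) := by
  obtain ⟨A, rfl⟩ := exists_factor hM
  have := ent_path A hN (PosSemidef.zero (n := n)) (hM.add hN) (PosSemidef.zero (n := Empty))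
    (by simp [add_comm]) (fun c _ => by
      simp only [smul_zero, add_zero, inv_one, Matrix.mul_one, det_isEmpty, one_mul, smul_add]
      congr 1
      abel)
  rw [trace_zero, Complex.zero_re, Phi_right_zero (re_trace_nonneg hM) (re_trace_nonneg hN)] at this
  have h0 : H (0 : Matrix Empty Empty ℂ) = 0 := by simp [H]
  linarith

lemma trace_fromBlocks' {l : Type*} [Fintype l] (A : Matrix n n ℂ) (B : Matrix n l ℂ)
    (C : Matrix l n ℂ) (D : Matrix l l ℂ) : (fromBlocks A B C D).trace = A.trace + D.trace := by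
  simp [Matrix.trace]

lemma psd_three {k l : Type*} [Fintype k] [Fintype l] (A : Matrix n m ℂ)
    (B : Matrix n k ℂ) (C : Matrix l m ℂ) :
    (fromBlocks (A * Aᴴ + B * Bᴴ) (A * Cᴴ) (C * Aᴴ) (C * Cᴴ)).PosSemidef := by
  have := posSemidef_self_mul_conjTranspose (fromBlocks A B C 0)
  rw [fromBlocks_conjTranspose, fromBlocks_multiply] at this
  simpa using this

lemma H_three {k l : Type*} [Fintype k] [Fintype l] [DecidableEq l] (A : Matrix n m ℂ)
    (B : Matrix n k ℂ) (C : Matrix l m ℂ) :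
    H (C * Cᴴ) + H (B * Bᴴ) + H (A * Aᴴ) +
      Phi (A * Aᴴ).trace.re (B * Bᴴ).trace.re (C * Cᴴ).trace.re ≤
      H (fromBlocks (A * Aᴴ + B * Bᴴ) (A * Cᴴ) (C * Aᴴ) (C * Cᴴ)) := by
  have := ent_path A (posSemidef_self_mul_conjTranspose B) (posSemidef_conjTranspose_mul_self C)
    (psd_three A B C) (posSemidef_self_mul_conjTranspose C)
    (by rw [trace_fromBlocks', trace_add]; ring) fun c hc => det_three A B C hc.le
  rwa [trace_mul_comm Cᴴ C] at this

lemma smul_mul_conj {k : Type*} (α : Matrix n m ℂ) (β : Matrix k m ℂ) (a b : ℝ) :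
    ((a : ℂ) • α) * ((b : ℂ) • β)ᴴ = ((a * b : ℝ) : ℂ) • (α * βᴴ) := by
  rw [conjTranspose_smul, Matrix.smul_mul, Matrix.mul_smul, smul_smul]
  simp

/-- the block matrix produced by a phase covariant map -/
noncomputable def blk (p r κ s w : ℝ) (α β : Matrix n m ℂ) : Matrix (n ⊕ n) (n ⊕ n) ℂ :=
  fromBlocks ((p : ℂ) • (α * αᴴ) + (r : ℂ) • (β * βᴴ)) ((κ : ℂ) • (α * βᴴ))
    ((κ : ℂ) • (β * αᴴ)) ((s : ℂ) • (α * αᴴ) + (w : ℂ) • (β * βᴴ))

lemma blk_down_eq {p r κ w : ℝ} (hp : 0 ≤ p) (hr : 0 ≤ r) (hκ : 0 ≤ κ) (hw : 0 ≤ w)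
    (h : κ ^ 2 = p * w) (α β : Matrix n m ℂ) :
    blk p r κ 0 w α β = fromBlocks
      ((((√p : ℝ) : ℂ) • α) * (((√p : ℝ) : ℂ) • α)ᴴ + (((√r : ℝ) : ℂ) • β) * (((√r : ℝ) : ℂ) • β)ᴴ)
      ((((√p : ℝ) : ℂ) • α) * (((√w : ℝ) : ℂ) • β)ᴴ) ((((√w : ℝ) : ℂ) • β) * (((√p : ℝ) : ℂ) • α)ᴴ)
      ((((√w : ℝ) : ℂ) • β) * (((√w : ℝ) : ℂ) • β)ᴴ) := by
  have h1 : √p * √w = κ := by rw [← Real.sqrt_mul hp, ← h, Real.sqrt_sq hκ]
  simp only [smul_mul_conj, Real.mul_self_sqrt hp, Real.mul_self_sqrt hr, Real.mul_self_sqrt hw,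
    h1, mul_comm (√w) (√p), blk]
  simp

lemma blk_down {p r κ w : ℝ} (hp : 0 ≤ p) (hr : 0 ≤ r) (hκ : 0 ≤ κ) (hw : 0 ≤ w)
    (h : κ ^ 2 = p * w) (α β : Matrix n m ℂ) :
    (blk p r κ 0 w α β).PosSemidef ∧
    p * (H (α * αᴴ) - negMulLog (α * αᴴ).trace.re) +
      (r + w) * (H (β * βᴴ) - negMulLog (β * βᴴ).trace.re) +
      ent2 (p * (α * αᴴ).trace.re + (r + w) * (β * βᴴ).trace.re)
        ((√(r * w) * (β * βᴴ).trace.re) ^ 2) ≤ H (blk p r κ 0 w α β) := by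
  rw [blk_down_eq hp hr hκ hw h]
  refine ⟨psd_three _ _ _, le_trans (le_of_eq ?_) (H_three _ _ _)⟩
  have hX := posSemidef_self_mul_conjTranspose α
  have hZ := posSemidef_self_mul_conjTranspose β
  simp only [smul_mul_conj, Real.mul_self_sqrt hp, Real.mul_self_sqrt hr, Real.mul_self_sqrt hw,
    trace_smul, smul_eq_mul, Complex.re_ofReal_mul, Phi]
  have a1 := H_smul' hX hp
  have a2 := H_smul' hZ hr
  have a3 := H_smul' hZ hw
  rw [mul_pow, Real.sq_sqrt (mul_nonneg hr hw),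
    show p * (α * αᴴ).trace.re + (r + w) * (β * βᴴ).trace.re =
      p * (α * αᴴ).trace.re + r * (β * βᴴ).trace.re + w * (β * βᴴ).trace.re by ring,
    show r * w * (β * βᴴ).trace.re ^ 2 = r * (β * βᴴ).trace.re * (w * (β * βᴴ).trace.re) by ring]
  linarith

lemma blk_swap (p r κ s w : ℝ) (α β : Matrix n m ℂ) :
    blk p r κ s w α β = (blk w s κ r p β α).submatrix (Equiv.sumComm n n) (Equiv.sumComm n n) := by
  ext (i | i) (j | j) <;> simp [blk, add_comm]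

lemma blk_add (p r κ s w p' r' κ' s' w' : ℝ) (α β : Matrix n m ℂ) :
    blk (p + p') (r + r') (κ + κ') (s + s') (w + w') α β =
      blk p r κ s w α β + blk p' r' κ' s' w' α β := by
  ext (i | i) (j | j) <;> simp [blk] <;> ring

lemma blk_trace (p r κ s w : ℝ) (α β : Matrix n m ℂ) :
    (blk p r κ s w α β).trace.re =
      (p + s) * (α * αᴴ).trace.re + (r + w) * (β * βᴴ).trace.re := by
  rw [blk, trace_fromBlocks']
  simp only [trace_add, trace_smul, smul_eq_mul, Complex.add_re, Complex.re_ofReal_mul]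
  ring

/-- determinant of the output of a pure state with populations `x`, `z` -/
def Qf (p r s w x z : ℝ) : ℝ := p * s * x ^ 2 + 2 * r * s * x * z + r * w * z ^ 2

lemma exists_split {p r κ s w x z : ℝ} (hp : 0 ≤ p) (hr : 0 ≤ r) (hκ : 0 ≤ κ) (hs : 0 ≤ s)
    (hw : 0 ≤ w) (h : κ ^ 2 = p * w - r * s) (hx : 0 ≤ x) (hz : 0 ≤ z) :
    ∃ p1 p2 w1 w2 κ1 κ2 : ℝ, 0 ≤ p1 ∧ 0 ≤ p2 ∧ 0 ≤ w1 ∧ 0 ≤ w2 ∧ 0 ≤ κ1 ∧ 0 ≤ κ2 ∧
      p1 + p2 = p ∧ w1 + w2 = w ∧ κ1 + κ2 = κ ∧ κ1 ^ 2 = p1 * w1 ∧ κ2 ^ 2 = w2 * p2 ∧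
      √(Qf p r s w x z) ≤ √(r * w1) * z + √(s * p2) * x := by
  have key : ∀ x z : ℝ, 0 ≤ x → 0 ≤ z → 0 < Qf p r s w x z →
      ∃ p1 p2 w1 w2 κ1 κ2 : ℝ, 0 ≤ p1 ∧ 0 ≤ p2 ∧ 0 ≤ w1 ∧ 0 ≤ w2 ∧ 0 ≤ κ1 ∧ 0 ≤ κ2 ∧
      p1 + p2 = p ∧ w1 + w2 = w ∧ κ1 + κ2 = κ ∧ κ1 ^ 2 = p1 * w1 ∧ κ2 ^ 2 = w2 * p2 ∧
      √(Qf p r s w x z) ≤ √(r * w1) * z + √(s * p2) * x := by
    intro x z hx hz hQ
    obtain ⟨Q, hQd⟩ : ∃ Q, Q = Qf p r s w x z := ⟨_, rfl⟩
    rw [← hQd] at hQ ⊢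
    rw [Qf] at hQd
    refine ⟨r * κ ^ 2 * z ^ 2 / Q, s * (p * x + r * z) ^ 2 / Q, r * (s * x + w * z) ^ 2 / Q,
      s * κ ^ 2 * x ^ 2 / Q, r * z * (s * x + w * z) * κ / Q, s * x * (p * x + r * z) * κ / Q,
      by positivity, by positivity, by positivity, by positivity, by positivity, by positivity,
      ?_, ?_, ?_, ?_, ?_, ?_⟩
    · rw [← add_div, div_eq_iff hQ.ne', h, hQd]; ring
    · rw [← add_div, div_eq_iff hQ.ne', h, hQd]; ring
    · rw [← add_div, div_eq_iff hQ.ne', hQd]; ring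
    · field_simp
    · field_simp
    · have hq := Real.sqrt_pos.2 hQ
      have a1 : √(r * (r * (s * x + w * z) ^ 2 / Q)) = r * (s * x + w * z) / √Q := by
        rw [show r * (r * (s * x + w * z) ^ 2 / Q) = (r * (s * x + w * z)) ^ 2 / Q by ring,
          Real.sqrt_div (sq_nonneg _), Real.sqrt_sq (by positivity)]
      have a2 : √(s * (s * (p * x + r * z) ^ 2 / Q)) = s * (p * x + r * z) / √Q := by
        rw [show s * (s * (p * x + r * z) ^ 2 / Q) = (s * (p * x + r * z)) ^ 2 / Q by ring,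
          Real.sqrt_div (sq_nonneg _), Real.sqrt_sq (by positivity)]
      rw [a1, a2, div_mul_eq_mul_div, div_mul_eq_mul_div, ← add_div, le_div_iff₀ hq,
        Real.mul_self_sqrt hQ.le, hQd]
      exact le_of_eq (by ring)
  have hQ0 : 0 ≤ Qf p r s w x z := by rw [Qf]; positivity
  rcases hQ0.eq_or_lt with h0 | h0
  · rw [← h0, Real.sqrt_zero]
    by_cases hrs : r * s = 0
    · exact ⟨p, 0, w, 0, κ, 0, hp, le_rfl, hw, le_rfl, hκ, le_rfl, by ring, by ring, by ring,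
        by rw [h, hrs]; ring, by ring, by positivity⟩
    · have : 0 < r * s := lt_of_le_of_ne (mul_nonneg hr hs) (Ne.symm hrs)
      obtain ⟨p1, p2, w1, w2, κ1, κ2, a1, a2, a3, a4, a5, a6, a7, a8, a9, a10, a11, -⟩ :=
        key 1 1 zero_le_one zero_le_one (by
          rw [Qf]; nlinarith [mul_nonneg hp hs, mul_nonneg hr hw])
      exact ⟨p1, p2, w1, w2, κ1, κ2, a1, a2, a3, a4, a5, a6, a7, a8, a9, a10, a11, by positivity⟩
  · exact key x z hx hz h0

lemma two_sqrt_le {a b : ℝ} (ha : 0 ≤ a) (hb : 0 ≤ b) : 2 * √(a * b) ≤ a + b := by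
  rw [Real.sqrt_mul ha]
  nlinarith [sq_nonneg (√a - √b), Real.mul_self_sqrt ha, Real.mul_self_sqrt hb]

/-- convex lower bound for the output entropy -/
noncomputable def Ff (p r s w x z : ℝ) : ℝ := Psi (x + z) √(Qf p r s w x z)

theorem blk_key {p r κ s w : ℝ} (hp : 0 ≤ p) (hr : 0 ≤ r) (hκ : 0 ≤ κ) (hs : 0 ≤ s)
    (hw : 0 ≤ w) (h : κ ^ 2 = p * w - r * s) (h1 : p + s = 1) (h2 : r + w = 1)
    (α β : Matrix n m ℂ) :
    (H (α * αᴴ) - negMulLog (α * αᴴ).trace.re) + (H (β * βᴴ) - negMulLog (β * βᴴ).trace.re) +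
      Ff p r s w (α * αᴴ).trace.re (β * βᴴ).trace.re +
      negMulLog ((α * αᴴ).trace.re + (β * βᴴ).trace.re) ≤ H (blk p r κ s w α β) := by
  have hx := re_trace_nonneg (posSemidef_self_mul_conjTranspose α)
  have hz := re_trace_nonneg (posSemidef_self_mul_conjTranspose β)
  obtain ⟨p1, p2, w1, w2, κ1, κ2, a1, a2, a3, a4, a5, a6, a7, a8, a9, a10, a11, a12⟩ :=
    exists_split hp hr hκ hs hw h hx hz
  obtain ⟨b1, b2⟩ := blk_down a1 hr a5 a3 a10 α β
  obtain ⟨b3, b4⟩ := blk_down a4 hs a6 a2 a11 β α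
  have b5 : blk p r κ s w α β = blk p1 r κ1 0 w1 α β + blk p2 0 κ2 s w2 α β := by
    rw [← blk_add, a7, a8, a9, add_zero, zero_add]
  have b6 := blk_swap p2 0 κ2 s w2 α β
  have b7 : (blk p2 0 κ2 s w2 α β).PosSemidef := b6 ▸ b3.submatrix _
  have b8 : H (blk p2 0 κ2 s w2 α β) = H (blk w2 s κ2 0 p2 β α) := by rw [b6, H_submatrix b3]
  have b9 := H_add b1 b7
  rw [← b5, b8, blk_trace, blk_trace] at b9
  generalize (α * αᴴ).trace.re = x at *
  generalize (β * βᴴ).trace.re = z at *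
  have c1 := two_sqrt_le hr a3
  have c2 := two_sqrt_le hs a2
  have c3 := Psi_add (t := p1 * x + (r + w1) * z) (c := √(r * w1) * z)
    (t' := w2 * z + (s + p2) * x) (c' := √(s * p2) * x) (by positivity) (by positivity)
    (by nlinarith [mul_nonneg a1 hx]) (by nlinarith [mul_nonneg a4 hz]) (Real.sqrt_nonneg _) a12
  have c4 : p1 * x + (r + w1) * z + (w2 * z + (s + p2) * x) = x + z := by
    linear_combination x * a7 + z * a8 + x * h1 + z * h2
  rw [c4] at c3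
  rw [Bin, show (p1 + 0) * x + (r + w1) * z = p1 * x + (r + w1) * z by ring,
    show (p2 + s) * x + (0 + w2) * z = w2 * z + (s + p2) * x by ring, c4] at b9
  rw [Psi, Psi, Psi] at c3
  rw [Ff, Psi]
  have d1 : p1 + (s + p2) = 1 := by linarith
  have d2 : r + w1 + w2 = 1 := by linarith
  have e1 : H (α * αᴴ) - negMulLog x =
    p1 * (H (α * αᴴ) - negMulLog x) + (s + p2) * (H (α * αᴴ) - negMulLog x) := by
    rw [← add_mul, d1, one_mul]
  have e2 : H (β * βᴴ) - negMulLog z =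
    (r + w1) * (H (β * βᴴ) - negMulLog z) + w2 * (H (β * βᴴ) - negMulLog z) := by
    rw [← add_mul, d2, one_mul]
  linarith

lemma Qf_le {p r κ s w x z : ℝ} (h : κ ^ 2 = p * w - r * s) (h1 : p + s = 1) (h2 : r + w = 1)
    (hx : 0 ≤ x) (hz : 0 ≤ z) : 2 * √(Qf p r s w x z) ≤ x + z := by
  have : √(Qf p r s w x z) ≤ (x + z) / 2 := by
    rw [Real.sqrt_le_left (by positivity), Qf]
    have e : x + z = (p * x + r * z) + (s * x + w * z) := by linear_combination -x * h1 - z * h2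
    have e2 : p * s * x ^ 2 + 2 * r * s * x * z + r * w * z ^ 2 =
        (p * x + r * z) * (s * x + w * z) - κ ^ 2 * (x * z) := by rw [h]; ring
    rw [e, e2]
    nlinarith [sq_nonneg ((p * x + r * z) - (s * x + w * z)), mul_nonneg (sq_nonneg κ)
      (mul_nonneg hx hz)]
  linarith

lemma Qf_add {p r κ s w x z x' z' : ℝ} (hp : 0 ≤ p) (hr : 0 ≤ r) (hs : 0 ≤ s)
    (hw : 0 ≤ w) (h : κ ^ 2 = p * w - r * s) (hx : 0 ≤ x) (hz : 0 ≤ z) (hx' : 0 ≤ x')
    (hz' : 0 ≤ z') :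
    √(Qf p r s w (x + x') (z + z')) ≤ √(Qf p r s w x z) + √(Qf p r s w x' z') := by
  have a1 : 0 ≤ Qf p r s w x z := by rw [Qf]; positivity
  have a2 : 0 ≤ Qf p r s w x' z' := by rw [Qf]; positivity
  have a3 : p * s * x * x' + r * s * (x * z' + x' * z) + r * w * z * z' ≤
      √(Qf p r s w x z) * √(Qf p r s w x' z') := by
    rw [← Real.sqrt_mul a1]
    apply Real.le_sqrt_of_sq_le
    have : Qf p r s w x z * Qf p r s w x' z' -
        (p * s * x * x' + r * s * (x * z' + x' * z) + r * w * z * z') ^ 2 =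
        r * s * κ ^ 2 * (x * z' - x' * z) ^ 2 := by
      rw [h, Qf, Qf]; ring
    have h3 : 0 ≤ r * s * κ ^ 2 * (x * z' - x' * z) ^ 2 := by positivity
    linarith
  rw [Real.sqrt_le_left (by positivity), add_sq, Real.sq_sqrt a1, Real.sq_sqrt a2]
  have : Qf p r s w (x + x') (z + z') = Qf p r s w x z + Qf p r s w x' z' +
      2 * (p * s * x * x' + r * s * (x * z' + x' * z) + r * w * z * z') := by
    rw [Qf, Qf, Qf]; ring
  linarith

lemma Ff_add {p r κ s w x z x' z' : ℝ} (hp : 0 ≤ p) (hr : 0 ≤ r) (hs : 0 ≤ s)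
    (hw : 0 ≤ w) (h : κ ^ 2 = p * w - r * s) (h1 : p + s = 1) (h2 : r + w = 1) (hx : 0 ≤ x)
    (hz : 0 ≤ z) (hx' : 0 ≤ x') (hz' : 0 ≤ z') :
    Ff p r s w (x + x') (z + z') ≤ Ff p r s w x z + Ff p r s w x' z' := by
  rw [Ff, Ff, Ff, show x + x' + (z + z') = x + z + (x' + z') by ring]
  exact Psi_add (Real.sqrt_nonneg _) (Real.sqrt_nonneg _) (Qf_le h h1 h2 hx hz)
    (Qf_le h h1 h2 hx' hz') (Real.sqrt_nonneg _) (Qf_add hp hr hs hw h hx hz hx' hz')

lemma Ff_smul {p r s w x z c : ℝ} (hc : 0 ≤ c) :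
    Ff p r s w (c * x) (c * z) = c * Ff p r s w x z := by
  rw [Ff, Ff, ← Psi_smul hc, show Qf p r s w (c * x) (c * z) = c ^ 2 * Qf p r s w x z by
    rw [Qf, Qf]; ring, Real.sqrt_mul (sq_nonneg c), Real.sqrt_sq hc, mul_add]

lemma Ff_sum {p r κ s w : ℝ} (hp : 0 ≤ p) (hr : 0 ≤ r) (hs : 0 ≤ s)
    (hw : 0 ≤ w) (h : κ ^ 2 = p * w - r * s) (h1 : p + s = 1) (h2 : r + w = 1) {ι : Type*}
    (S : Finset ι) {x z : ι → ℝ} (hx : ∀ i, 0 ≤ x i) (hz : ∀ i, 0 ≤ z i) :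
    Ff p r s w (∑ i ∈ S, x i) (∑ i ∈ S, z i) ≤ ∑ i ∈ S, Ff p r s w (x i) (z i) := by
  classical
  induction S using Finset.induction_on with
  | empty => simp [Ff, Qf, Psi_zero]
  | insert a S ha ih =>
    simp only [Finset.sum_insert ha]
    have := Ff_add hp hr hs hw h h1 h2 (hx a) (hz a) (Finset.sum_nonneg fun i (_ : i ∈ S) => hx i)
      (Finset.sum_nonneg fun i (_ : i ∈ S) => hz i)
    linarith

end Vale.Agent.P358
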