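import Vale.Agent.P358.Defs
import Vale.Agent.P358.Ent

open Matrix Finset Real
open scoped ComplexOrder

namespace Vale.Agent.P358

abbrev Bits (n : ℕ) := Fin n → Fin 2

lemma sum_cons {n : ℕ} {M : Type*} [AddCommMonoid M] (f : Bits (n + 1) → M) :
    ∑ a, f a = ∑ a : Bits n, f (Fin.cons 0 a) + ∑ a : Bits n, f (Fin.cons 1 a) := by
  rw [← (Fin.consEquiv fun _ : Fin (n + 1) => Fin 2).sum_comp, Fintype.sum_prod_type,
    Fin.sum_univ_two]
  rfl

/-- block of a matrix on `n+1` qubits -/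
def sub {n : ℕ} (ρ : Matrix (Bits (n + 1)) (Bits (n + 1)) ℂ) (a b : Fin 2) :
    Matrix (Bits n) (Bits n) ℂ := Matrix.of fun s t => ρ (Fin.cons a s) (Fin.cons b t)

lemma tensorPow_succ (Φ : Matrix (Fin 2) (Fin 2) ℂ → Matrix (Fin 2) (Fin 2) ℂ) {n : ℕ}
    (ρ : Matrix (Bits (n + 1)) (Bits (n + 1)) ℂ) (s0 t0 : Fin 2) (s t : Bits n) :
    tensorPow Φ (n + 1) ρ (Fin.cons s0 s) (Fin.cons t0 t) =
      Φ (single 0 0 1) s0 t0 * tensorPow Φ n (sub ρ 0 0) s t +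
      Φ (single 0 1 1) s0 t0 * tensorPow Φ n (sub ρ 0 1) s t +
      Φ (single 1 0 1) s0 t0 * tensorPow Φ n (sub ρ 1 0) s t +
      Φ (single 1 1 1) s0 t0 * tensorPow Φ n (sub ρ 1 1) s t := by
  simp only [tensorPow, of_apply, sum_cons, Fin.prod_univ_succ, Fin.cons_zero, Fin.cons_succ, sub,
    Finset.sum_add_distrib, Finset.mul_sum, mul_assoc]
  ring

lemma sum4 {A B C D M : Type*} [Fintype A] [Fintype B] [Fintype C] [Fintype D] [AddCommMonoid M]
    (f : A → B → C → D → M) :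
    ∑ a, ∑ b, ∑ c, ∑ d, f a b c d = ∑ c, ∑ d, ∑ b, ∑ a, f a b c d := by
  calc _ = ∑ x : A × B, ∑ y : C × D, f x.1 x.2 y.1 y.2 := by simp only [Fintype.sum_prod_type]
    _ = ∑ y : C × D, ∑ x : A × B, f x.1 x.2 y.1 y.2 := Finset.sum_comm
    _ = _ := by
      simp only [Fintype.sum_prod_type]
      exact Finset.sum_congr rfl fun c _ => Finset.sum_congr rfl fun d _ => Finset.sum_comm

/-- Kraus dilation -/
noncomputable def dil {n : ℕ} {P : Type} (K : Fin 4 → Fin 2 → Fin 2 → ℝ) (ψ : Matrix (Bits n) P ℂ) :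
    Matrix (Bits n) ((Fin n → Fin 4) × P) ℂ :=
  Matrix.of fun s k => ∑ a : Bits n, (∏ i, (K (k.1 i) (s i) (a i) : ℂ)) * ψ a k.2

lemma tensorPow_dil {Φ : Matrix (Fin 2) (Fin 2) ℂ → Matrix (Fin 2) (Fin 2) ℂ}
    {K : Fin 4 → Fin 2 → Fin 2 → ℝ}
    (hK : ∀ a b s t, Φ (single a b 1) s t = ∑ j, (K j s a : ℂ) * (K j t b : ℂ)) {n : ℕ} {P : Type}
    [Fintype P] (ψ φ : Matrix (Bits n) P ℂ) :
    tensorPow Φ n (ψ * φᴴ) = dil K ψ * (dil K φ)ᴴ := by
  ext s t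
  simp only [tensorPow, of_apply, hK, Matrix.mul_apply, dil, conjTranspose_apply,
    Fintype.sum_prod_type, star_sum, star_mul', star_prod, RCLike.star_def, Complex.conj_ofReal,
    Finset.prod_univ_sum, Fintype.piFinset_univ, Finset.sum_mul, Finset.mul_sum,
    Finset.prod_mul_distrib]
  calc _ = ∑ a : Bits n, ∑ b : Bits n, ∑ k : Fin n → Fin 4, ∑ x : P,
        ((∏ i, (K (k i) (s i) (a i) : ℂ)) * ψ a x) *
          ((∏ i, (K (k i) (t i) (b i) : ℂ)) * (starRingEnd ℂ) (φ b x)) := by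
        refine Finset.sum_congr rfl fun a _ => Finset.sum_congr rfl fun b _ => ?_
        rw [Finset.sum_comm]
        refine Finset.sum_congr rfl fun k _ => Finset.sum_congr rfl fun x _ => ?_
        ring
    _ = ∑ k : Fin n → Fin 4, ∑ x : P, ∑ b : Bits n, ∑ a : Bits n,
        ((∏ i, (K (k i) (s i) (a i) : ℂ)) * ψ a x) *
          ((∏ i, (K (k i) (t i) (b i) : ℂ)) * (starRingEnd ℂ) (φ b x)) := sum4 _
    _ = _ := rfl

/-- Kraus operators of the channel -/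
noncomputable def kraus (γ ν : ℝ) : Fin 4 → Fin 2 → Fin 2 → ℝ :=
  ![![![√(1 - ν), 0], ![0, √(1 - ν) * √(1 - γ)]], ![![0, √(γ * (1 - ν))], ![0, 0]],
    ![![√ν * √(1 - γ), 0], ![0, √ν]], ![![0, 0], ![√(γ * ν), 0]]]

lemma gad_kraus {γ ν : ℝ} (hγ : γ ∈ Set.Icc (0 : ℝ) 1) (hν : ν ∈ Set.Icc (0 : ℝ) 1) (a b s t : Fin 2) :
    gad γ ν (single a b 1) s t = ∑ j, (kraus γ ν j s a : ℂ) * (kraus γ ν j t b : ℂ) := by
  have h1 : ((√(1 - ν) : ℝ) : ℂ) ^ 2 = 1 - ν := by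
    exact_mod_cast Real.sq_sqrt (sub_nonneg.2 hν.2)
  have h2 : ((√(1 - γ) : ℝ) : ℂ) ^ 2 = 1 - γ := by
    exact_mod_cast Real.sq_sqrt (sub_nonneg.2 hγ.2)
  have h3 : ((√ν : ℝ) : ℂ) ^ 2 = ν := by exact_mod_cast Real.sq_sqrt hν.1
  have h4 : ((√(γ * (1 - ν)) : ℝ) : ℂ) ^ 2 = γ * (1 - ν) := by
    exact_mod_cast Real.sq_sqrt (mul_nonneg hγ.1 (sub_nonneg.2 hν.2))
  have h5 : ((√(γ * ν) : ℝ) : ℂ) ^ 2 = γ * ν := by
    exact_mod_cast Real.sq_sqrt (mul_nonneg hγ.1 hν.1)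
  fin_cases a <;> fin_cases b <;> fin_cases s <;> fin_cases t <;>
    simp [gad, kraus, Fin.sum_univ_four, -Real.sqrt_mul, -Real.sqrt_mul']
  · linear_combination -h1 - ((√(1 - γ) : ℝ) : ℂ) ^ 2 * h3 - ν * h2
  · linear_combination -h5
  · linear_combination -((√(1 - γ) : ℝ) : ℂ) * h1 - ((√(1 - γ) : ℝ) : ℂ) * h3
  · linear_combination -((√(1 - γ) : ℝ) : ℂ) * h1 - ((√(1 - γ) : ℝ) : ℂ) * h3
  · linear_combination -h4
  · linear_combination -((√(1 - γ) : ℝ) : ℂ) ^ 2 * h1 - (1 - ν) * h2 - h3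

lemma tensor_psd {γ ν : ℝ} (hγ : γ ∈ Set.Icc (0 : ℝ) 1) (hν : ν ∈ Set.Icc (0 : ℝ) 1) {n : ℕ}
    {ρ : Matrix (Bits n) (Bits n) ℂ} (hρ : ρ.PosSemidef) :
    (tensorPow (gad γ ν) n ρ).PosSemidef := by
  obtain ⟨B, rfl⟩ := exists_factor hρ
  rw [tensorPow_dil (gad_kraus hγ hν)]
  exact posSemidef_self_mul_conjTranspose _

/-- splitting off the first qubit -/
def split (n : ℕ) : Bits n ⊕ Bits n ≃ Bits (n + 1) where
  toFun := Sum.elim (fun t => Fin.cons 0 t) (fun t => Fin.cons 1 t)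
  invFun := fun a => if a 0 = 0 then Sum.inl (Fin.tail a) else Sum.inr (Fin.tail a)
  left_inv := by rintro (t | t) <;> simp
  right_inv := by
    intro a
    by_cases h : a 0 = 0
    · simp only [h, if_true, Sum.elim_inl]
      rw [← h, Fin.cons_self_tail]
    · have h1 : a 0 = 1 := by omega
      simp only [h, if_false, Sum.elim_inr]
      rw [← h1, Fin.cons_self_tail]

/-- marginal of a weight on bit strings -/
def marg {n : ℕ} (f : Bits n → ℝ) (i : Fin n) (b : Fin 2) : ℝ := ∑ a, if a i = b then f a else 0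

lemma marg_nonneg {n : ℕ} {f : Bits n → ℝ} (hf : ∀ a, 0 ≤ f a) (i : Fin n) (b : Fin 2) :
    0 ≤ marg f i b := Finset.sum_nonneg fun a _ => by split_ifs; exacts [hf a, le_rfl]

lemma marg_add {n : ℕ} (f : Bits n → ℝ) (i : Fin n) : marg f i 0 + marg f i 1 = ∑ a, f a := by
  rw [marg, marg, ← Finset.sum_add_distrib]
  refine Finset.sum_congr rfl fun a _ => ?_
  by_cases h : a i = 0
  · simp [h]
  · have h1 : a i = 1 := by omega
    simp [h1]

lemma marg_zero0 {n : ℕ} (f : Bits (n + 1) → ℝ) :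
    marg f 0 0 = ∑ a : Bits n, f (Fin.cons 0 a) := by simp [marg, sum_cons]

lemma marg_zero1 {n : ℕ} (f : Bits (n + 1) → ℝ) :
    marg f 0 1 = ∑ a : Bits n, f (Fin.cons 1 a) := by simp [marg, sum_cons]

lemma marg_succ {n : ℕ} (f : Bits (n + 1) → ℝ) (i : Fin n) (b : Fin 2) :
    marg f i.succ b = marg (fun a => f (Fin.cons 0 a)) i b + marg (fun a => f (Fin.cons 1 a)) i b := by
  simp [marg, sum_cons]

lemma marg_lin {n : ℕ} (f g : Bits n → ℝ) (c d : ℝ) (i : Fin n) (b : Fin 2) :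
    marg (fun a => c * f a + d * g a) i b = c * marg f i b + d * marg g i b := by
  rw [marg, marg, marg, Finset.mul_sum, Finset.mul_sum, ← Finset.sum_add_distrib]
  exact Finset.sum_congr rfl fun a _ => by split_ifs <;> simp

lemma marg_sum {n : ℕ} {ι : Type*} [Fintype ι] (f : ι → Bits n → ℝ) (c : ι → ℝ) (i : Fin n)
    (b : Fin 2) : marg (fun a => ∑ k, c k * f k a) i b = ∑ k, c k * marg (f k) i b := by
  simp only [marg, Finset.mul_sum]
  rw [Finset.sum_comm]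
  refine Finset.sum_congr rfl fun a _ => ?_
  split_ifs <;> simp

lemma shannon_le {n : ℕ} {f : Bits n → ℝ} (hf : ∀ a, 0 ≤ f a) :
    ∑ a, negMulLog (f a) ≤ negMulLog (∑ a, f a) + ∑ i, Bin (marg f i 0) (marg f i 1) := by
  induction n with
  | zero => simp
  | succ n ih =>
    have h0 := ih (f := fun a => f (Fin.cons 0 a)) fun a => hf _
    have h1 := ih (f := fun a => f (Fin.cons 1 a)) fun a => hf _
    rw [sum_cons, sum_cons, Fin.sum_univ_succ, marg_zero0, marg_zero1, Bin]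
    have h2 : ∑ i, Bin (marg (fun a => f (Fin.cons 0 a)) i 0) (marg (fun a => f (Fin.cons 0 a)) i 1) +
        ∑ i, Bin (marg (fun a => f (Fin.cons 1 a)) i 0) (marg (fun a => f (Fin.cons 1 a)) i 1) ≤
        ∑ i : Fin n, Bin (marg f i.succ 0) (marg f i.succ 1) := by
      rw [← Finset.sum_add_distrib]
      refine Finset.sum_le_sum fun i _ => ?_
      rw [marg_succ, marg_succ]
      exact Bin_add (marg_nonneg (fun a => hf _) _ _) (marg_nonneg (fun a => hf _) _ _)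
        (marg_nonneg (fun a => hf _) _ _) (marg_nonneg (fun a => hf _) _ _)
    linarith

/-- real diagonal -/
def dg {d : Type} (ρ : Matrix d d ℂ) (a : d) : ℝ := (ρ a a).re

lemma dg_out0 (γ ν : ℝ) {n : ℕ} (ρ : Matrix (Bits (n + 1)) (Bits (n + 1)) ℂ) (s : Bits n) :
    dg (tensorPow (gad γ ν) (n + 1) ρ) (Fin.cons 0 s) =
      (1 - γ * ν) * dg (tensorPow (gad γ ν) n (sub ρ 0 0)) s +
      (γ * (1 - ν)) * dg (tensorPow (gad γ ν) n (sub ρ 1 1)) s := by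
  rw [dg, tensorPow_succ]
  simp [gad, dg]
  ring_nf
  simp

lemma dg_out1 (γ ν : ℝ) {n : ℕ} (ρ : Matrix (Bits (n + 1)) (Bits (n + 1)) ℂ) (s : Bits n) :
    dg (tensorPow (gad γ ν) (n + 1) ρ) (Fin.cons 1 s) =
      (γ * ν) * dg (tensorPow (gad γ ν) n (sub ρ 0 0)) s +
      (1 - γ * (1 - ν)) * dg (tensorPow (gad γ ν) n (sub ρ 1 1)) s := by
  rw [dg, tensorPow_succ]
  simp [gad, dg]
  ring_nf
  simp

lemma out_marg (γ ν : ℝ) {n : ℕ} (ρ : Matrix (Bits n) (Bits n) ℂ) :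
    ∑ s, dg (tensorPow (gad γ ν) n ρ) s = ∑ a, dg ρ a ∧ ∀ i,
      marg (dg (tensorPow (gad γ ν) n ρ)) i 1 =
        (γ * ν) * marg (dg ρ) i 0 + (1 - γ * (1 - ν)) * marg (dg ρ) i 1 := by
  induction n with
  | zero => simp [tensorPow, dg]
  | succ n ih =>
    obtain ⟨a0, b0⟩ := ih (sub ρ 0 0)
    obtain ⟨a1, b1⟩ := ih (sub ρ 1 1)
    have c0 : dg (sub ρ 0 0) = fun a => dg ρ (Fin.cons 0 a) := rfl
    have c1 : dg (sub ρ 1 1) = fun a => dg ρ (Fin.cons 1 a) := rfl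
    refine ⟨?_, fun i => ?_⟩
    · rw [sum_cons, sum_cons]
      simp only [dg_out0, dg_out1, Finset.sum_add_distrib, ← Finset.mul_sum, a0, a1, c0, c1]
      ring
    · refine Fin.cases ?_ (fun i => ?_) i
      · rw [marg_zero1, marg_zero0, marg_zero1]
        simp only [dg_out1, Finset.sum_add_distrib, ← Finset.mul_sum, a0, a1, c0, c1]
      · rw [marg_succ, marg_succ, marg_succ]
        simp only [dg_out0, dg_out1, marg_lin, b0, b1, c0, c1]
        ring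

lemma kap {γ : ℝ} (ν : ℝ) (hγ : γ ∈ Set.Icc (0 : ℝ) 1) :
    √(1 - γ) ^ 2 = (1 - γ * ν) * (1 - γ * (1 - ν)) - γ * (1 - ν) * (γ * ν) := by
  rw [Real.sq_sqrt (sub_nonneg.2 hγ.2)]; ring

/-- lower bound function for the channel -/
noncomputable def Fg (γ ν x z : ℝ) : ℝ :=
  Ff (1 - γ * ν) (γ * (1 - ν)) (γ * ν) (1 - γ * (1 - ν)) x z

lemma par {γ ν : ℝ} (hγ : γ ∈ Set.Icc (0 : ℝ) 1) (hν : ν ∈ Set.Icc (0 : ℝ) 1) :
    0 ≤ 1 - γ * ν ∧ 0 ≤ γ * (1 - ν) ∧ 0 ≤ γ * ν ∧ 0 ≤ 1 - γ * (1 - ν) := by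
  obtain ⟨a, b⟩ := hγ
  obtain ⟨c, d⟩ := hν
  refine ⟨by nlinarith, mul_nonneg a (by linarith), mul_nonneg a c, by nlinarith⟩

theorem out_ent {γ ν : ℝ} (hγ : γ ∈ Set.Icc (0 : ℝ) 1) (hν : ν ∈ Set.Icc (0 : ℝ) 1) {n : ℕ}
    {ρ : Matrix (Bits n) (Bits n) ℂ} (hρ : ρ.PosSemidef) :
    negMulLog (∑ a, dg ρ a) + ∑ i, Fg γ ν (marg (dg ρ) i 0) (marg (dg ρ) i 1) ≤
      H (tensorPow (gad γ ν) n ρ) := by
  obtain ⟨p1, p2, p3, p4⟩ := par hγ hν
  induction n with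
  | zero =>
    have h0 : tensorPow (gad γ ν) 0 ρ = ρ := by
      ext s t
      simp only [tensorPow, of_apply, Finset.univ_unique, Finset.sum_singleton, Fin.prod_univ_zero,
        one_mul]
      congr 1 <;> exact Subsingleton.elim _ _
    rw [h0, H_eq_of_det hρ (μ := fun a => dg ρ a) (re_diag_nonneg hρ) (re_trace_eq ρ)
      (fun c _ => by simp [dg])]
    simp
  | succ n ih =>
    obtain ⟨ψ, hψ⟩ := exists_factor hρ
    have hs : ∀ a b, sub ρ a b = (ψ.submatrix (fun t : Bits n => (Fin.cons a t : Bits (n + 1))) id) *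
        (ψ.submatrix (fun t : Bits n => (Fin.cons b t : Bits (n + 1))) id)ᴴ := by
      intro a b
      ext s t
      simp [sub, hψ, Matrix.mul_apply]
    obtain ⟨α, hα⟩ : ∃ α, α = dil (kraus γ ν)
      (ψ.submatrix (fun t : Bits n => (Fin.cons 0 t : Bits (n + 1))) id) := ⟨_, rfl⟩
    obtain ⟨β, hβ⟩ : ∃ β, β = dil (kraus γ ν)
      (ψ.submatrix (fun t : Bits n => (Fin.cons 1 t : Bits (n + 1))) id) := ⟨_, rfl⟩
    have t00 : tensorPow (gad γ ν) n (sub ρ 0 0) = α * αᴴ := by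
      rw [hs, tensorPow_dil (gad_kraus hγ hν), hα]
    have t01 : tensorPow (gad γ ν) n (sub ρ 0 1) = α * βᴴ := by
      rw [hs, tensorPow_dil (gad_kraus hγ hν), hα, hβ]
    have t10 : tensorPow (gad γ ν) n (sub ρ 1 0) = β * αᴴ := by
      rw [hs, tensorPow_dil (gad_kraus hγ hν), hα, hβ]
    have t11 : tensorPow (gad γ ν) n (sub ρ 1 1) = β * βᴴ := by
      rw [hs, tensorPow_dil (gad_kraus hγ hν), hβ]
    have hb : (tensorPow (gad γ ν) (n + 1) ρ).submatrix (split n) (split n) =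
        blk (1 - γ * ν) (γ * (1 - ν)) (√(1 - γ)) (γ * ν) (1 - γ * (1 - ν)) α β := by
      ext (s | s) (t | t) <;>
        simp only [submatrix_apply, split, Equiv.coe_fn_mk, Sum.elim_inl, Sum.elim_inr,
          tensorPow_succ, t00, t01, t10, t11] <;>
        simp [gad, blk] <;> ring_nf <;> simp
    have hk := blk_key p1 p2 (Real.sqrt_nonneg _) p3 p4 (kap ν hγ) (by ring) (by ring) α β
    rw [← hb, H_submatrix (tensor_psd hγ hν hρ)] at hk
    have i0 := ih (ρ := sub ρ 0 0) (hs 0 0 ▸ posSemidef_self_mul_conjTranspose _)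
    have i1 := ih (ρ := sub ρ 1 1) (hs 1 1 ▸ posSemidef_self_mul_conjTranspose _)
    have c0 : dg (sub ρ 0 0) = fun a => dg ρ (Fin.cons 0 a) := rfl
    have c1 : dg (sub ρ 1 1) = fun a => dg ρ (Fin.cons 1 a) := rfl
    have x0 : (α * αᴴ).trace.re = ∑ a : Bits n, dg ρ (Fin.cons 0 a) := by
      rw [re_trace_eq, ← t00]; exact (out_marg γ ν (sub ρ 0 0)).1
    have x1 : (β * βᴴ).trace.re = ∑ a : Bits n, dg ρ (Fin.cons 1 a) := by
      rw [re_trace_eq, ← t11]; exact (out_marg γ ν (sub ρ 1 1)).1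
    rw [x0, x1] at hk
    rw [t00, c0] at i0
    rw [t11, c1] at i1
    rw [sum_cons, Fin.sum_univ_succ, marg_zero0, marg_zero1, Fg]
    have hd : ∀ a, 0 ≤ dg ρ a := re_diag_nonneg hρ
    have h2 : ∑ i : Fin n, Fg γ ν (marg (dg ρ) i.succ 0) (marg (dg ρ) i.succ 1) ≤
        ∑ i, Fg γ ν (marg (fun a => dg ρ (Fin.cons 0 a)) i 0)
          (marg (fun a => dg ρ (Fin.cons 0 a)) i 1) +
        ∑ i, Fg γ ν (marg (fun a => dg ρ (Fin.cons 1 a)) i 0)
          (marg (fun a => dg ρ (Fin.cons 1 a)) i 1) := by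
      rw [← Finset.sum_add_distrib]
      refine Finset.sum_le_sum fun i _ => ?_
      rw [marg_succ, marg_succ]
      exact Ff_add p1 p2 p3 p4 (kap ν hγ) (by ring) (by ring)
        (marg_nonneg (fun a => hd _) _ _) (marg_nonneg (fun a => hd _) _ _)
        (marg_nonneg (fun a => hd _) _ _) (marg_nonneg (fun a => hd _) _ _)
    linarith

lemma vn_eq {d : Type} [Fintype d] [DecidableEq d] (M : Matrix d d ℂ) :
    vnEntropy M = H M / Real.log 2 := by
  rw [vnEntropy, H]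
  split_ifs with h
  · rw [Finset.sum_div, ← Finset.sum_neg_distrib]
    exact Finset.sum_congr rfl fun i _ => by rw [Real.logb, negMulLog]; ring
  · simp

lemma h2_eq (x : ℝ) : h2 x = (negMulLog x + negMulLog (1 - x)) / Real.log 2 := by
  rw [h2, Real.logb, Real.logb, negMulLog, negMulLog]; ring

lemma rate_eq' (γ ν q : ℝ) : rate γ ν q =
    (negMulLog ((1 - γ) * q + γ * ν) + negMulLog (1 - ((1 - γ) * q + γ * ν)) -
      ent2 1 (((1 - γ) * q + γ * ν) * (1 - ((1 - γ) * q + γ * ν)) - (1 - γ) * q * (1 - q))) /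
      Real.log 2 := by
  rw [rate, h2_eq, h2_eq, ent2, one_pow, ← sub_div]
  congr 4
  ring

lemma Fg_eq {γ ν q : ℝ} (hγ : γ ∈ Set.Icc (0 : ℝ) 1) (hν : ν ∈ Set.Icc (0 : ℝ) 1)
    (hq : q ∈ Set.Icc (0 : ℝ) 1) : Fg γ ν (1 - q) q =
      ent2 1 (((1 - γ) * q + γ * ν) * (1 - ((1 - γ) * q + γ * ν)) - (1 - γ) * q * (1 - q)) := by
  obtain ⟨p1, p2, p3, p4⟩ := par hγ hν
  have h0 : 0 ≤ Qf (1 - γ * ν) (γ * (1 - ν)) (γ * ν) (1 - γ * (1 - ν)) (1 - q) q := by
    have := hq.1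
    have := sub_nonneg.2 hq.2
    rw [Qf]; positivity
  rw [Fg, Ff, Psi, Real.sq_sqrt h0, sub_add_cancel, negMulLog_one, sub_zero, Qf]
  congr 1
  ring

theorem upper {γ ν : ℝ} (hγ : γ ∈ Set.Icc (0 : ℝ) 1) (hν : ν ∈ Set.Icc (0 : ℝ) 1) {n : ℕ} {R : ℝ}
    (hR : ∀ q ∈ Set.Icc (0 : ℝ) 1, rate γ ν q ≤ R) {x : ℝ}
    (hx : x ∈ holevoValues (tensorPow (gad γ ν) n)) : x ≤ n * R := by
  obtain ⟨p1, p2, p3, p4⟩ := par hγ hν
  obtain ⟨k, q, ρ, hq0, hq1, hρ, rfl⟩ := hx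
  have hl : 0 < Real.log 2 := Real.log_pos (by norm_num)
  have hd : ∀ a s, 0 ≤ dg (ρ a) s := fun a => re_diag_nonneg (hρ a).1
  have ht : ∀ a, ∑ s, dg (ρ a) s = 1 := fun a => by
    have := re_trace_eq (ρ a)
    rw [(hρ a).2] at this
    exact this.symm
  obtain ⟨σ, hσ⟩ : ∃ σ, σ = ∑ a, (q a : ℂ) • tensorPow (gad γ ν) n (ρ a) := ⟨_, rfl⟩
  have hσp : σ.PosSemidef := hσ ▸ posSemidef_sum _ fun a _ =>
    (tensor_psd hγ hν (hρ a).1).smul (by exact_mod_cast hq0 a)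
  have hσd : dg σ = fun s => ∑ a, q a * dg (tensorPow (gad γ ν) n (ρ a)) s := by
    ext s
    rw [hσ, dg, Matrix.sum_apply, Complex.re_sum]
    exact Finset.sum_congr rfl fun a _ => by
      rw [Matrix.smul_apply, smul_eq_mul, Complex.re_ofReal_mul, dg]
  obtain ⟨z, hz⟩ : ∃ z : Fin n → ℝ, z = fun i => ∑ a, q a * marg (dg (ρ a)) i 1 := ⟨_, rfl⟩
  have hm0 : ∀ a i, marg (dg (ρ a)) i 0 = 1 - marg (dg (ρ a)) i 1 := fun a i => by
    have := marg_add (dg (ρ a)) i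
    rw [ht] at this
    linarith
  have hxz : ∀ i, ∑ a, q a * marg (dg (ρ a)) i 0 = 1 - z i := fun i => by
    simp only [hm0, mul_sub, Finset.sum_sub_distrib, mul_one, hq1, hz]
  have hz0 : ∀ i, z i ∈ Set.Icc (0 : ℝ) 1 := fun i => by
    constructor
    · rw [hz]
      exact Finset.sum_nonneg fun a _ => mul_nonneg (hq0 a) (marg_nonneg (hd a) _ _)
    · have := hxz i
      have h2 : 0 ≤ ∑ a, q a * marg (dg (ρ a)) i 0 :=
        Finset.sum_nonneg fun a _ => mul_nonneg (hq0 a) (marg_nonneg (hd a) _ _)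
      linarith
  have hσ1 : ∑ s, dg σ s = 1 := by
    rw [hσd, Finset.sum_comm]
    simp only [← Finset.mul_sum, (out_marg γ ν _).1, ht, mul_one, hq1]
  have hσm : ∀ i, marg (dg σ) i 1 = (1 - γ) * z i + γ * ν := fun i => by
    rw [hσd, marg_sum]
    have : ∀ a, q a * marg (dg (tensorPow (gad γ ν) n (ρ a))) i 1 =
        γ * ν * (q a * marg (dg (ρ a)) i 0) + (1 - γ * (1 - ν)) * (q a * marg (dg (ρ a)) i 1) :=
      fun a => by rw [(out_marg γ ν _).2]; ring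
    simp only [this, Finset.sum_add_distrib, ← Finset.mul_sum, hxz]
    rw [hz]
    ring
  have hσm0 : ∀ i, marg (dg σ) i 0 = 1 - ((1 - γ) * z i + γ * ν) := fun i => by
    have := marg_add (dg σ) i
    rw [hσ1, hσm] at this
    linarith
  have u1 := (H_le_diag hσp).trans (shannon_le (f := dg σ) (re_diag_nonneg hσp))
  simp only [hσ1, hσm, hσm0, Bin, sub_add_cancel, negMulLog_one, sub_zero, zero_add] at u1
  have u2 : ∑ i, Fg γ ν (1 - z i) (z i) ≤ ∑ a, q a * H (tensorPow (gad γ ν) n (ρ a)) := by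
    calc _ ≤ ∑ i, ∑ a, q a * Fg γ ν (marg (dg (ρ a)) i 0) (marg (dg (ρ a)) i 1) := by
          refine Finset.sum_le_sum fun i _ => ?_
          have := Ff_sum p1 p2 p3 p4 (kap ν hγ) (by ring) (by ring) Finset.univ
            (x := fun a => q a * marg (dg (ρ a)) i 0) (z := fun a => q a * marg (dg (ρ a)) i 1)
            (fun a => mul_nonneg (hq0 a) (marg_nonneg (hd a) _ _))
            (fun a => mul_nonneg (hq0 a) (marg_nonneg (hd a) _ _))
          simp only [Ff_smul (hq0 _), hxz] at this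
          rw [hz] at this ⊢
          exact this
      _ ≤ _ := by
          rw [Finset.sum_comm]
          refine Finset.sum_le_sum fun a _ => ?_
          rw [← Finset.mul_sum]
          refine mul_le_mul_of_nonneg_left ?_ (hq0 a)
          have := out_ent hγ hν (hρ a).1
          rwa [ht, negMulLog_one, zero_add] at this
  have u3 : ∑ i, rate γ ν (z i) ≤ n * R := by
    have := Finset.sum_le_sum fun i (_ : i ∈ Finset.univ) => hR _ (hz0 i)
    simpa using this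
  refine le_trans ?_ u3
  simp only [← hσ, vn_eq, rate_eq', ← mul_div_assoc, ← Finset.sum_div, ← sub_div]
  refine div_le_div_of_nonneg_right ?_ hl.le
  simp only [Fg_eq hγ hν (hz0 _)] at u2
  rw [Finset.sum_sub_distrib]
  simp only [add_comm (negMulLog (1 - _))] at u1
  linarith

end Vale.Agent.P358
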