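import Mathlib

open scoped ComplexOrder

namespace Vale.Agent.P358

/-- von Neumann entropy in bits -/
noncomputable def vnEntropy {d : Type} [Fintype d] [DecidableEq d] (ρ : Matrix d d ℂ) : ℝ :=
  if h : ρ.IsHermitian then -∑ i, h.eigenvalues i * Real.logb 2 (h.eigenvalues i) else 0

/-- the generalized amplitude-damping channel, extended linearly to all 2 by 2 matrices -/
noncomputable def gad (γ ν : ℝ) (ρ : Matrix (Fin 2) (Fin 2) ℂ) : Matrix (Fin 2) (Fin 2) ℂ :=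
  !![ρ 0 0 + ρ 1 1 - ((1 - γ) * ρ 1 1 + γ * ν * (ρ 0 0 + ρ 1 1)), (√(1 - γ) : ℝ) * ρ 0 1;
    (√(1 - γ) : ℝ) * ρ 1 0, (1 - γ) * ρ 1 1 + γ * ν * (ρ 0 0 + ρ 1 1)]

/-- the `n`-fold tensor power of a linear map on 2 by 2 matrices -/
noncomputable def tensorPow (Φ : Matrix (Fin 2) (Fin 2) ℂ → Matrix (Fin 2) (Fin 2) ℂ) (n : ℕ)
    (ρ : Matrix (Fin n → Fin 2) (Fin n → Fin 2) ℂ) : Matrix (Fin n → Fin 2) (Fin n → Fin 2) ℂ :=
  Matrix.of fun s t => ∑ a, ∑ b, (∏ i, Φ (Matrix.single (a i) (b i) 1) (s i) (t i)) * ρ a b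

/-- the Holevo quantities of all finite ensembles of input states -/
def holevoValues {d : Type} [Fintype d] [DecidableEq d] (Φ : Matrix d d ℂ → Matrix d d ℂ) :
    Set ℝ :=
  {x | ∃ (k : ℕ) (q : Fin k → ℝ) (ρ : Fin k → Matrix d d ℂ),
    (∀ a, 0 ≤ q a) ∧ ∑ a, q a = 1 ∧ (∀ a, (ρ a).PosSemidef ∧ (ρ a).trace = 1) ∧
    x = vnEntropy (∑ a, (q a : ℂ) • Φ (ρ a)) - ∑ a, q a * vnEntropy (Φ (ρ a))}

/-- the Holevo capacity -/
noncomputable def holevo {d : Type} [Fintype d] [DecidableEq d]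
    (Φ : Matrix d d ℂ → Matrix d d ℂ) : ℝ :=
  sSup (holevoValues Φ)

/-- the classical capacity (regularized Holevo capacity) of a qubit channel -/
noncomputable def capacity (Φ : Matrix (Fin 2) (Fin 2) ℂ → Matrix (Fin 2) (Fin 2) ℂ) : ℝ :=
  sSup {x | ∃ n : ℕ, 1 ≤ n ∧ x = holevo (tensorPow Φ n) / n}

/-- binary entropy in bits -/
noncomputable def h2 (x : ℝ) : ℝ := -(x * Real.logb 2 x) - (1 - x) * Real.logb 2 (1 - x)

/-- the one-parameter function whose maximum over `[0,1]` is the capacity -/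
noncomputable def rate (γ ν q : ℝ) : ℝ :=
  h2 ((1 - γ) * q + γ * ν) -
    h2 ((1 + √(1 - 4 * (((1 - γ) * q + γ * ν) * (1 - ((1 - γ) * q + γ * ν)) -
      (1 - γ) * q * (1 - q)))) / 2)

end Vale.Agent.P358
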