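import Vale.Agent.P358.Chan

open Matrix Finset Real
open scoped ComplexOrder

namespace Vale.Agent.P358

/-- tensor product of 2 by 2 matrices -/
noncomputable def tprod {n : ℕ} (σ : Fin n → Matrix (Fin 2) (Fin 2) ℂ) :
    Matrix (Bits n) (Bits n) ℂ := Matrix.of fun a b => ∏ i, σ i (a i) (b i)

lemma tprod_mul {n : ℕ} (σ τ : Fin n → Matrix (Fin 2) (Fin 2) ℂ) :
    tprod σ * tprod τ = tprod fun i => σ i * τ i := by
  ext a b
  simp only [tprod, Matrix.mul_apply, of_apply, Finset.prod_univ_sum, Fintype.piFinset_univ,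
    Finset.prod_mul_distrib]

lemma tprod_conj {n : ℕ} (σ : Fin n → Matrix (Fin 2) (Fin 2) ℂ) :
    (tprod σ)ᴴ = tprod fun i => (σ i)ᴴ := by
  ext a b
  simp [tprod, conjTranspose_apply]

lemma tprod_diag {n : ℕ} (μ : Fin n → Fin 2 → ℂ) :
    tprod (fun i => diagonal (μ i)) = diagonal fun a => ∏ i, μ i (a i) := by
  ext a b
  by_cases h : a = b
  · subst h; simp [tprod]
  · obtain ⟨i, hi⟩ := Function.ne_iff.1 h
    rw [diagonal_apply_ne _ h, tprod, of_apply]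
    exact Finset.prod_eq_zero (Finset.mem_univ i) (diagonal_apply_ne _ hi)

lemma tprod_one {n : ℕ} : tprod (fun _ : Fin n => (1 : Matrix (Fin 2) (Fin 2) ℂ)) = 1 := by
  have := tprod_diag (n := n) fun _ _ => 1
  simpa using this

lemma tprod_trace {n : ℕ} (σ : Fin n → Matrix (Fin 2) (Fin 2) ℂ) :
    (tprod σ).trace = ∏ i, (σ i).trace := by
  simp only [tprod, Matrix.trace, Matrix.diag, of_apply, Finset.prod_univ_sum,
    Fintype.piFinset_univ]

lemma tprod_psd {n : ℕ} {σ : Fin n → Matrix (Fin 2) (Fin 2) ℂ} (h : ∀ i, (σ i).PosSemidef) :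
    (tprod σ).PosSemidef := by
  choose B hB using fun i => exists_factor (h i)
  have : tprod σ = tprod B * (tprod B)ᴴ := by
    rw [tprod_conj, tprod_mul]; congr 1; ext1 i; exact hB i
  rw [this]
  exact posSemidef_self_mul_conjTranspose _

lemma shannon_prod {n : ℕ} (μ : Fin n → Fin 2 → ℝ) (h : ∀ i, μ i 0 + μ i 1 = 1) :
    ∑ a : Bits n, ∏ i, μ i (a i) = 1 ∧
    ∑ a : Bits n, negMulLog (∏ i, μ i (a i)) = ∑ i, (negMulLog (μ i 0) + negMulLog (μ i 1)) := by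
  induction n with
  | zero => simp
  | succ n ih =>
    obtain ⟨a, b⟩ := ih (fun i => μ i.succ) fun i => h _
    simp only [sum_cons, Fin.prod_univ_succ, Fin.cons_zero, Fin.cons_succ, Fin.sum_univ_succ,
      Real.negMulLog_mul, Finset.sum_add_distrib, ← Finset.mul_sum, ← Finset.sum_mul, a, b]
    constructor
    · linear_combination h 0
    · linear_combination (∑ i : Fin n, negMulLog (μ i.succ 0) +
        ∑ i : Fin n, negMulLog (μ i.succ 1)) * h 0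

lemma H_tprod {n : ℕ} {σ : Fin n → Matrix (Fin 2) (Fin 2) ℂ} (h : ∀ i, (σ i).PosSemidef)
    (ht : ∀ i, (σ i).trace = 1) : H (tprod σ) = ∑ i, H (σ i) := by
  choose U hU1 hU2 hU3 using fun i => spec (h i).1
  have h1 : tprod U * (tprod U)ᴴ = 1 := by
    rw [tprod_conj, tprod_mul, ← tprod_one]; congr 1; ext1 i; exact hU1 i
  have h2 : tprod σ = tprod U *
      diagonal (fun a : Bits n => ((∏ i, (h i).1.eigenvalues (a i) : ℝ) : ℂ)) * (tprod U)ᴴ := by
    push_cast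
    rw [← tprod_diag (fun i j => ((h i).1.eigenvalues j : ℂ)), tprod_conj, tprod_mul, tprod_mul]
    congr 1; ext1 i; exact hU3 i
  rw [h2, H_conj h1 fun a => Finset.prod_nonneg fun i _ => (h i).eigenvalues_nonneg _,
    (shannon_prod (fun i => (h i).1.eigenvalues) fun i => ?_).2]
  · exact Finset.sum_congr rfl fun i _ => by rw [H_eq (h i).1, Fin.sum_univ_two]
  · have := re_trace_eig (h i).1
    rw [ht, Fin.sum_univ_two] at this
    exact this.symm

lemma gad_lin (γ ν : ℝ) (M : Matrix (Fin 2) (Fin 2) ℂ) (s t : Fin 2) :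
    gad γ ν M s t = ∑ a, ∑ b, gad γ ν (single a b 1) s t * M a b := by
  fin_cases s <;> fin_cases t <;> simp [gad, Fin.sum_univ_two] <;> ring

lemma tensor_tprod (γ ν : ℝ) {n : ℕ} (σ : Fin n → Matrix (Fin 2) (Fin 2) ℂ) :
    tensorPow (gad γ ν) n (tprod σ) = tprod fun i => gad γ ν (σ i) := by
  ext s t
  simp only [tensorPow, tprod, of_apply]
  simp only [gad_lin γ ν (σ _), Finset.prod_univ_sum, Fintype.piFinset_univ,
    Finset.prod_mul_distrib]

lemma tprod_one_site (M : Matrix (Fin 2) (Fin 2) ℂ) :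
    tprod (fun _ : Fin 1 => M) = M.submatrix (Equiv.funUnique (Fin 1) (Fin 2))
      (Equiv.funUnique (Fin 1) (Fin 2)) := by
  ext a b
  simp [tprod]

lemma gad_psd {γ ν : ℝ} (hγ : γ ∈ Set.Icc (0 : ℝ) 1) (hν : ν ∈ Set.Icc (0 : ℝ) 1)
    {M : Matrix (Fin 2) (Fin 2) ℂ} (hM : M.PosSemidef) : (gad γ ν M).PosSemidef := by
  have := tensor_psd hγ hν (tprod_psd (σ := fun _ : Fin 1 => M) fun _ => hM)
  rwa [tensor_tprod, tprod_one_site, posSemidef_submatrix_equiv] at this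

lemma H_two {M : Matrix (Fin 2) (Fin 2) ℂ} (hM : M.PosSemidef) :
    H M = ent2 M.trace.re M.det.re := by
  have h1 := re_trace_eig hM.1
  have h2 := re_det_eig hM.1
  rw [Fin.sum_univ_two] at h1
  rw [Fin.prod_univ_two] at h2
  refine (rep_mat hM).eq (rep_ent2 (re_trace_nonneg hM) (re_det_nonneg hM) ?_) rfl fun u hu => ?_
  · rw [h1, h2]; nlinarith [sq_nonneg (hM.1.eigenvalues 0 - hM.1.eigenvalues 1)]
  · rw [det_one_add_eig hM.1, Complex.ofReal_re, Fin.prod_univ_two, h1, h2]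
    congr 1
    field_simp
    ring

/-- the two signal states -/
noncomputable def sig (q : ℝ) (ε : Fin 2) : Matrix (Fin 2) (Fin 2) ℂ :=
  !![((1 - q : ℝ) : ℂ), (((-1) ^ (ε : ℕ) * (√(1 - q) * √q) : ℝ) : ℂ);
    (((-1) ^ (ε : ℕ) * (√(1 - q) * √q) : ℝ) : ℂ), (q : ℂ)]

lemma sig_psd {q : ℝ} (hq : q ∈ Set.Icc (0 : ℝ) 1) (ε : Fin 2) : (sig q ε).PosSemidef := by
  have h1 : ((√(1 - q) : ℝ) : ℂ) ^ 2 = 1 - q := by
    exact_mod_cast Real.sq_sqrt (sub_nonneg.2 hq.2)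
  have h2 : ((√q : ℝ) : ℂ) ^ 2 = q := by exact_mod_cast Real.sq_sqrt hq.1
  have := posSemidef_vecMulVec_self_star
    (![((√(1 - q) : ℝ) : ℂ), (((-1) ^ (ε : ℕ) * √q : ℝ) : ℂ)] : Fin 2 → ℂ)
  convert this using 1
  ext a b
  fin_cases a <;> fin_cases b <;> fin_cases ε <;> simp [sig, vecMulVec_apply] <;>
    first
      | linear_combination -h1
      | linear_combination -h2
      | ring

lemma sig_trace (q : ℝ) (ε : Fin 2) : (sig q ε).trace = 1 := by
  simp [sig, Matrix.trace_fin_two]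

lemma gad_trace (γ ν : ℝ) (M : Matrix (Fin 2) (Fin 2) ℂ) : (gad γ ν M).trace = M.trace := by
  simp [gad, Matrix.trace_fin_two]

lemma H_sig {γ ν q : ℝ} (hγ : γ ∈ Set.Icc (0 : ℝ) 1) (hν : ν ∈ Set.Icc (0 : ℝ) 1)
    (hq : q ∈ Set.Icc (0 : ℝ) 1) (ε : Fin 2) : H (gad γ ν (sig q ε)) =
      ent2 1 (((1 - γ) * q + γ * ν) * (1 - ((1 - γ) * q + γ * ν)) - (1 - γ) * q * (1 - q)) := by
  rw [H_two (gad_psd hγ hν (sig_psd hq ε)), gad_trace, sig_trace, Complex.one_re]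
  congr 1
  have h1 : ((√(1 - q) : ℝ) : ℂ) ^ 2 = 1 - q := by
    exact_mod_cast Real.sq_sqrt (sub_nonneg.2 hq.2)
  have h2 : ((√q : ℝ) : ℂ) ^ 2 = q := by exact_mod_cast Real.sq_sqrt hq.1
  have h3 : ((√(1 - γ) : ℝ) : ℂ) ^ 2 = 1 - γ := by
    exact_mod_cast Real.sq_sqrt (sub_nonneg.2 hγ.2)
  have : (gad γ ν (sig q ε)).det = ((((1 - γ) * q + γ * ν) * (1 - ((1 - γ) * q + γ * ν)) -
      (1 - γ) * q * (1 - q) : ℝ) : ℂ) := by
    fin_cases ε <;> simp [gad, sig, Matrix.det_fin_two] <;>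
      linear_combination (-((√(1 - q) : ℝ) : ℂ) ^ 2 * ((√q : ℝ) : ℂ) ^ 2) * h3 -
        (1 - γ) * ((√q : ℝ) : ℂ) ^ 2 * h1 - (1 - γ) * (1 - q) * h2
  rw [this, Complex.ofReal_re]

lemma avg_sig (γ ν q : ℝ) (s t : Fin 2) :
    ∑ ε : Fin 2, (2 : ℂ)⁻¹ * gad γ ν (sig q ε) s t =
      diagonal (fun j => ((![1 - ((1 - γ) * q + γ * ν), (1 - γ) * q + γ * ν] j : ℝ) : ℂ)) s t := by
  fin_cases s <;> fin_cases t <;> simp [gad, sig, Fin.sum_univ_two] <;> ring

theorem lower {γ ν q : ℝ} (hγ : γ ∈ Set.Icc (0 : ℝ) 1) (hν : ν ∈ Set.Icc (0 : ℝ) 1)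
    (hq : q ∈ Set.Icc (0 : ℝ) 1) (n : ℕ) :
    n * rate γ ν q ∈ holevoValues (tensorPow (gad γ ν) n) := by
  obtain ⟨k, ⟨e⟩⟩ : ∃ k, Nonempty (Fin k ≃ Bits n) := ⟨_, ⟨(Fintype.equivFin _).symm⟩⟩
  have hw : ∑ _a : Bits n, ∏ _i : Fin n, (2 : ℝ)⁻¹ = 1 :=
    (shannon_prod (n := n) (fun _ _ => (2 : ℝ)⁻¹) fun _ => by norm_num).1
  refine ⟨k, fun _ => ∏ _i : Fin n, (2 : ℝ)⁻¹, fun a => tprod fun i => sig q (e a i),
    fun _ => by positivity, ?_, fun a => ⟨tprod_psd fun i => sig_psd hq _, ?_⟩, ?_⟩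
  · rw [← hw]; exact e.sum_comp fun _ => ∏ _i : Fin n, (2 : ℝ)⁻¹
  · simp [tprod_trace, sig_trace]
  · obtain ⟨μ, hμ⟩ : ∃ μ : Fin 2 → ℝ, μ = ![1 - ((1 - γ) * q + γ * ν), (1 - γ) * q + γ * ν] :=
      ⟨_, rfl⟩
    have hμ0 : ∀ j, 0 ≤ μ j := by
      intro j
      obtain ⟨a1, a2⟩ := hγ
      obtain ⟨b1, b2⟩ := hν
      obtain ⟨c1, c2⟩ := hq
      rw [hμ]
      fin_cases j
      · show 0 ≤ 1 - ((1 - γ) * q + γ * ν)
        nlinarith [mul_nonneg (sub_nonneg.2 a2) (sub_nonneg.2 c2), mul_nonneg a1 (sub_nonneg.2 b2)]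
      · show 0 ≤ (1 - γ) * q + γ * ν
        nlinarith [mul_nonneg (sub_nonneg.2 a2) c1, mul_nonneg a1 b1]
    have h1 : ∑ a : Fin k, ((∏ _i : Fin n, (2 : ℝ)⁻¹ : ℝ) : ℂ) •
        tensorPow (gad γ ν) n (tprod fun i => sig q (e a i)) =
        tprod fun _ => diagonal fun j => (μ j : ℂ) := by
      rw [e.sum_comp fun b : Bits n => ((∏ _i : Fin n, (2 : ℝ)⁻¹ : ℝ) : ℂ) •
        tensorPow (gad γ ν) n (tprod fun i => sig q (b i))]
      ext s t
      rw [Matrix.sum_apply]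
      simp only [tensor_tprod]
      simp only [Matrix.smul_apply, smul_eq_mul, tprod, of_apply, hμ, ← avg_sig,
        Finset.prod_univ_sum, Fintype.piFinset_univ, Finset.prod_mul_distrib]
      push_cast
      rfl
    have hD : (diagonal fun j => (μ j : ℂ)).PosSemidef :=
      PosSemidef.diagonal fun j => by simpa using hμ0 j
    have h2 : H (diagonal fun j => (μ j : ℂ)) =
        negMulLog ((1 - γ) * q + γ * ν) + negMulLog (1 - ((1 - γ) * q + γ * ν)) := by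
      have := H_conj (U := 1) (by simp) hμ0
      rw [conjTranspose_one, Matrix.one_mul, Matrix.mul_one, Fin.sum_univ_two] at this
      rw [this, hμ, add_comm]
      rfl
    have h3 : ∀ a : Fin k, H (tensorPow (gad γ ν) n (tprod fun i => sig q (e a i))) = n *
        ent2 1 (((1 - γ) * q + γ * ν) * (1 - ((1 - γ) * q + γ * ν)) - (1 - γ) * q * (1 - q)) := by
      intro a
      rw [tensor_tprod, H_tprod (fun i => gad_psd hγ hν (sig_psd hq _))
        (fun i => by rw [gad_trace, sig_trace])]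
      simp [H_sig hγ hν hq]
    have hw' : ∑ _a : Fin k, ∏ _i : Fin n, (2 : ℝ)⁻¹ = 1 := by
      rw [← hw]; exact e.sum_comp fun _ => ∏ _i : Fin n, (2 : ℝ)⁻¹
    simp only [h1, vn_eq, h3, ← Finset.sum_mul, hw', one_mul]
    rw [H_tprod (fun _ => hD) (fun _ => by simp [hμ, trace_diagonal]), rate_eq']
    simp only [h2, Finset.sum_const, Finset.card_univ, Fintype.card_fin, nsmul_eq_mul]
    ring

lemma values_one {γ ν : ℝ} (hγ : γ ∈ Set.Icc (0 : ℝ) 1) (hν : ν ∈ Set.Icc (0 : ℝ) 1) :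
    holevoValues (gad γ ν) = holevoValues (tensorPow (gad γ ν) 1) := by
  obtain ⟨e, he⟩ : ∃ e, e = Equiv.funUnique (Fin 1) (Fin 2) := ⟨_, rfl⟩
  have h1 : ∀ M, tensorPow (gad γ ν) 1 (M.submatrix e e) = (gad γ ν M).submatrix e e := by
    intro M
    rw [he, ← tprod_one_site, tensor_tprod, tprod_one_site]
  have key : ∀ (k : ℕ) (q : Fin k → ℝ) (ρ : Fin k → Matrix (Fin 2) (Fin 2) ℂ), (∀ a, 0 ≤ q a) →
      (∀ a, (ρ a).PosSemidef) →
      vnEntropy (∑ a, (q a : ℂ) • gad γ ν (ρ a)) - ∑ a, q a * vnEntropy (gad γ ν (ρ a)) =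
      vnEntropy (∑ a, (q a : ℂ) • tensorPow (gad γ ν) 1 ((ρ a).submatrix e e)) -
        ∑ a, q a * vnEntropy (tensorPow (gad γ ν) 1 ((ρ a).submatrix e e)) := by
    intro k q ρ hq hρ
    have h2 : ∑ a, (q a : ℂ) • (gad γ ν (ρ a)).submatrix e e =
        (∑ a, (q a : ℂ) • gad γ ν (ρ a)).submatrix e e := by
      ext s t
      simp [Matrix.sum_apply]
    simp only [h1, vn_eq, h2, H_submatrix (gad_psd hγ hν (hρ _))]
    rw [H_submatrix (posSemidef_sum _ fun a _ =>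
      (gad_psd hγ hν (hρ a)).smul (by exact_mod_cast hq a))]
  ext x
  constructor
  · rintro ⟨k, q, ρ, a1, a2, a3, rfl⟩
    exact ⟨k, q, fun a => (ρ a).submatrix e e, a1, a2, fun a => ⟨(a3 a).1.submatrix _,
      by rw [trace_submatrix_equiv, (a3 a).2]⟩, key k q ρ a1 fun a => (a3 a).1⟩
  · rintro ⟨k, q, ρ, a1, a2, a3, rfl⟩
    refine ⟨k, q, fun a => (ρ a).submatrix e.symm e.symm, a1, a2, fun a => ⟨(a3 a).1.submatrix _,
      by rw [trace_submatrix_equiv, (a3 a).2]⟩, ?_⟩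
    rw [key k q _ a1 fun a => (a3 a).1.submatrix _]
    simp

lemma rate_cont (γ ν : ℝ) : Continuous (rate γ ν) := by
  have h : Continuous h2 := by
    have : h2 = fun x => (negMulLog x + negMulLog (1 - x)) / Real.log 2 := funext h2_eq
    rw [this]
    fun_prop
  unfold rate
  fun_prop

theorem main {γ ν : ℝ} (hγ : γ ∈ Set.Icc (0 : ℝ) 1) (hν : ν ∈ Set.Icc (0 : ℝ) 1) :
    (∀ n : ℕ, 1 ≤ n → BddAbove (holevoValues (tensorPow (gad γ ν) n)) ∧
      holevo (tensorPow (gad γ ν) n) = n * holevo (gad γ ν)) ∧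
    BddAbove (holevoValues (gad γ ν)) ∧
    capacity (gad γ ν) = holevo (gad γ ν) ∧
    IsGreatest (rate γ ν '' Set.Icc 0 1) (capacity (gad γ ν)) := by
  obtain ⟨q, hq, hmax⟩ := isCompact_Icc.exists_isMaxOn (Set.nonempty_Icc.2 zero_le_one)
    (rate_cont γ ν).continuousOn
  have hG : ∀ n : ℕ, IsGreatest (holevoValues (tensorPow (gad γ ν) n)) (n * rate γ ν q) :=
    fun n => ⟨lower hγ hν hq n, fun x hx => upper hγ hν (fun q' hq' => hmax hq') hx⟩
  have h1 : IsGreatest (holevoValues (gad γ ν)) (rate γ ν q) := by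
    have := hG 1
    rwa [← values_one hγ hν, Nat.cast_one, one_mul] at this
  have h2 : holevo (gad γ ν) = rate γ ν q := h1.csSup_eq
  have h3 : ∀ n : ℕ, holevo (tensorPow (gad γ ν) n) = n * rate γ ν q := fun n => (hG n).csSup_eq
  have h4 : capacity (gad γ ν) = rate γ ν q := by
    have : {x | ∃ n : ℕ, 1 ≤ n ∧ x = holevo (tensorPow (gad γ ν) n) / n} = {rate γ ν q} := by
      ext x
      constructor
      · rintro ⟨n, hn, rfl⟩
        have : (n : ℝ) ≠ 0 := by positivity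
        rw [h3, Set.mem_singleton_iff]
        field_simp
      · rintro rfl
        exact ⟨1, le_rfl, by simp [h3]⟩
    rw [capacity, this, csSup_singleton]
  refine ⟨fun n _ => ⟨(hG n).bddAbove, by rw [h3, h2]⟩, h1.bddAbove, by rw [h4, h2], ?_⟩
  rw [h4]
  exact ⟨⟨q, hq, rfl⟩, by rintro _ ⟨q', hq', rfl⟩; exact hmax hq'⟩

end Vale.Agent.P358
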