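import Mathlib

open Real Filter Topology Finset

namespace Vale.Agent.P358

/-- `l` is the log-determinant profile of a signed spectrum with first moment `t` and entropy `h`. -/
def Rep (l : ℝ → ℝ) (t h : ℝ) : Prop :=
  ∃ G : ℝ → ℝ, (∀ u, 0 < u → HasDerivAt G (l u) u) ∧ Tendsto G (𝓝[>] 0) (𝓝 (-h)) ∧
    Tendsto (fun u => G u - t * (1 + Real.log u)) atTop (𝓝 0)

lemma Rep.congr {l l' : ℝ → ℝ} {t h t' h' : ℝ} (H : Rep l t h) (hl : ∀ u, 0 < u → l' u = l u)
    (ht : t' = t) (hh : h' = h) : Rep l' t' h' := by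
  obtain ⟨G, h1, h2, h3⟩ := H
  subst ht hh
  exact ⟨G, fun u hu => (hl u hu) ▸ h1 u hu, h2, h3⟩

lemma Rep.zero : Rep (fun _ => 0) 0 0 :=
  ⟨fun _ => 0, fun u _ => hasDerivAt_const u 0, by simp, by simp⟩

lemma Rep.add {l l' : ℝ → ℝ} {t h t' h' : ℝ} (H : Rep l t h) (H' : Rep l' t' h') :
    Rep (fun u => l u + l' u) (t + t') (h + h') := by
  obtain ⟨G, h1, h2, h3⟩ := H
  obtain ⟨G', h1', h2', h3'⟩ := H'
  refine ⟨fun u => G u + G' u, fun u hu => (h1 u hu).add (h1' u hu), ?_, ?_⟩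
  · have := h2.add h2'
    rwa [← neg_add] at this
  · have := h3.add h3'
    rw [add_zero] at this
    refine this.congr fun u => by ring

lemma Rep.smul {l : ℝ → ℝ} {t h : ℝ} (H : Rep l t h) (c : ℝ) :
    Rep (fun u => c * l u) (c * t) (c * h) := by
  obtain ⟨G, h1, h2, h3⟩ := H
  refine ⟨fun u => c * G u, fun u hu => (h1 u hu).const_mul c, ?_, ?_⟩
  · have := h2.const_mul c
    rwa [mul_neg] at this
  · have := h3.const_mul c
    rw [mul_zero] at this
    refine this.congr fun u => by ring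

lemma Rep.sub {l l' : ℝ → ℝ} {t h t' h' : ℝ} (H : Rep l t h) (H' : Rep l' t' h') :
    Rep (fun u => l u - l' u) (t - t') (h - h') :=
  (H.add (H'.smul (-1))).congr (fun u _ => by ring) (by ring) (by ring)

lemma Rep.sum {ι : Type*} (s : Finset ι) {l : ι → ℝ → ℝ} {t h : ι → ℝ}
    (H : ∀ i ∈ s, Rep (l i) (t i) (h i)) :
    Rep (fun u => ∑ i ∈ s, l i u) (∑ i ∈ s, t i) (∑ i ∈ s, h i) := by
  classical
  induction s using Finset.induction_on with
  | empty => simpa using Rep.zero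
  | insert a s ha ih =>
    simp only [Finset.sum_insert ha]
    exact (H a (Finset.mem_insert_self _ _)).add
      (ih fun i hi => H i (Finset.mem_insert_of_mem hi))

lemma Rep.base {x : ℝ} (hx : 0 ≤ x) : Rep (fun u => Real.log (1 + x / u)) x (negMulLog x) := by
  refine ⟨fun u => (u + x) * Real.log (u + x) - u * Real.log u, fun u hu => ?_, ?_, ?_⟩
  · have hux : u + x ≠ 0 := by positivity
    have h1 : HasDerivAt (fun u => (u + x) * Real.log (u + x)) (Real.log (u + x) + 1) u := by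
      have := (Real.hasDerivAt_mul_log hux).comp u ((hasDerivAt_id u).add_const x)
      rw [mul_one] at this
      exact this
    have h2 := Real.hasDerivAt_mul_log hu.ne'
    have h3 := h1.sub h2
    have h4 : Real.log (1 + x / u) = Real.log (u + x) + 1 - (Real.log u + 1) := by
      have : 1 + x / u = (u + x) / u := by field_simp
      rw [this, Real.log_div hux hu.ne']
      ring
    show HasDerivAt _ (Real.log (1 + x / u)) u
    rw [h4]
    exact h3
  · have hc : Continuous fun u : ℝ => (u + x) * Real.log (u + x) - u * Real.log u :=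
      (Real.continuous_mul_log.comp (continuous_id.add continuous_const)).sub
        Real.continuous_mul_log
    have := (hc.tendsto 0).mono_left (nhdsWithin_le_nhds (s := Set.Ioi 0))
    simpa [negMulLog] using this
  · have hup : Tendsto (fun u : ℝ => x ^ 2 / u) atTop (𝓝 0) :=
      tendsto_const_nhds.div_atTop tendsto_id
    refine tendsto_of_tendsto_of_tendsto_of_le_of_le' tendsto_const_nhds hup ?_ ?_
    · filter_upwards [eventually_gt_atTop 0] with u hu
      have hux : 0 < u + x := by positivity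
      have h1 := Real.one_sub_inv_le_log_of_pos (x := (u + x) / u) (by positivity)
      rw [Real.log_div hux.ne' hu.ne', inv_div] at h1
      have h2 : (u + x) * (1 - u / (u + x)) = x := by field_simp; ring
      nlinarith [mul_le_mul_of_nonneg_left h1 hux.le]
    · filter_upwards [eventually_gt_atTop 0] with u hu
      have hux : 0 < u + x := by positivity
      have h1 := Real.log_le_sub_one_of_pos (x := (u + x) / u) (by positivity)
      rw [Real.log_div hux.ne' hu.ne'] at h1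
      have h2 : (u + x) * ((u + x) / u - 1) = x + x ^ 2 / u := by field_simp; ring
      nlinarith [mul_le_mul_of_nonneg_left h1 hux.le]

lemma Rep.nonneg {l : ℝ → ℝ} {h : ℝ} (H : Rep l 0 h) (hl : ∀ u, 0 < u → 0 ≤ l u) : 0 ≤ h := by
  obtain ⟨G, h1, h2, h3⟩ := H
  have hm : MonotoneOn G (Set.Ioi 0) := by
    apply monotoneOn_of_deriv_nonneg (convex_Ioi 0)
    · exact fun u hu => (h1 u hu).continuousAt.continuousWithinAt
    · rw [interior_Ioi]
      exact fun u hu => (h1 u hu).differentiableAt.differentiableWithinAt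
    · rw [interior_Ioi]
      intro u hu
      rw [(h1 u hu).deriv]
      exact hl u hu
  have h3' : Tendsto G atTop (𝓝 0) := by simpa using h3
  have h4 : ∀ u, 0 < u → G u ≤ 0 := by
    intro u hu
    refine ge_of_tendsto h3' ?_
    filter_upwards [eventually_ge_atTop u] with v hv
    exact hm hu (lt_of_lt_of_le hu hv) hv
  have h5 : -h ≤ 0 := by
    refine le_of_tendsto h2 ?_
    filter_upwards [self_mem_nhdsWithin] with u hu
    exact h4 u hu
  linarith

lemma Rep.le {l l' : ℝ → ℝ} {t t' h h' : ℝ} (H : Rep l t h) (H' : Rep l' t' h') (ht : t = t')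
    (hl : ∀ u, 0 < u → l u ≤ l' u) : h ≤ h' := by
  have := ((H'.sub H).congr (fun _ _ => rfl) (by rw [ht, sub_self]) rfl).nonneg
    fun u hu => sub_nonneg.2 (hl u hu)
  linarith

lemma Rep.eq {l l' : ℝ → ℝ} {t t' h h' : ℝ} (H : Rep l t h) (H' : Rep l' t' h') (ht : t = t')
    (hl : ∀ u, 0 < u → l u = l' u) : h = h' :=
  le_antisymm (H.le H' ht fun u hu => (hl u hu).le) (H'.le H ht.symm fun u hu => (hl u hu).ge)

/-- entropy of the pair of numbers with sum `t` and product `p` -/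
noncomputable def ent2 (t p : ℝ) : ℝ :=
  negMulLog ((t + √(t ^ 2 - 4 * p)) / 2) + negMulLog ((t - √(t ^ 2 - 4 * p)) / 2)

lemma root_nonneg {t p : ℝ} (ht : 0 ≤ t) (hp : 0 ≤ p) : 0 ≤ (t - √(t ^ 2 - 4 * p)) / 2 := by
  have : √(t ^ 2 - 4 * p) ≤ t := by
    rw [Real.sqrt_le_left ht]; linarith
  linarith

lemma rep_ent2 {t p : ℝ} (ht : 0 ≤ t) (hp : 0 ≤ p) (h : 4 * p ≤ t ^ 2) :
    Rep (fun u => Real.log (1 + t / u + p / u ^ 2)) t (ent2 t p) := by
  have h1 : 0 ≤ (t + √(t ^ 2 - 4 * p)) / 2 := by positivity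
  have h2 := root_nonneg ht hp
  refine ((Rep.base h1).add (Rep.base h2)).congr (fun u hu => ?_) (by ring) rfl
  rw [← Real.log_mul (by positivity) (by positivity)]
  congr 1
  have h3 := Real.sq_sqrt (sub_nonneg.2 h)
  generalize √(t ^ 2 - 4 * p) = r at *
  field_simp
  nlinarith

lemma ent2_zero {t : ℝ} (ht : 0 ≤ t) : ent2 t 0 = negMulLog t := by
  simp [ent2, Real.sqrt_sq ht]

lemma ent2_smul {t p s : ℝ} (hs : 0 ≤ s) :
    ent2 (s * t) (s ^ 2 * p) = s * ent2 t p + t * negMulLog s := by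
  have : √((s * t) ^ 2 - 4 * (s ^ 2 * p)) = s * √(t ^ 2 - 4 * p) := by
    rw [show (s * t) ^ 2 - 4 * (s ^ 2 * p) = s ^ 2 * (t ^ 2 - 4 * p) by ring,
      Real.sqrt_mul (sq_nonneg s), Real.sqrt_sq hs]
  rw [ent2, this, show (s * t + s * √(t ^ 2 - 4 * p)) / 2 = s * ((t + √(t ^ 2 - 4 * p)) / 2) by ring,
    show (s * t - s * √(t ^ 2 - 4 * p)) / 2 = s * ((t - √(t ^ 2 - 4 * p)) / 2) by ring,
    Real.negMulLog_mul, Real.negMulLog_mul, ent2]
  ring

lemma log_tangent {k x y X Y : ℝ} (hk : 0 ≤ k) (hx : 0 < x) (hy : 0 < y) (hX : 0 < X)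
    (hY : 0 < Y) :
    Real.log (1 + k / (X * Y)) - k / (X * Y + k) * (x / X - 1 + (y / Y - 1)) ≤
      Real.log (1 + k / (x * y)) := by
  obtain ⟨θ, hθ⟩ : ∃ θ, θ = k / (X * Y + k) := ⟨_, rfl⟩
  have hθ0 : 0 ≤ θ := by rw [hθ]; positivity
  have hθ1 : 0 ≤ 1 - θ := by
    rw [hθ, sub_nonneg, div_le_one (by positivity)]; nlinarith [mul_pos hX hY]
  have h1 := (strictConcaveOn_log_Ioi.concaveOn).2 (show (1 : ℝ) ∈ Set.Ioi 0 by simp)
    (show X * Y / (x * y) ∈ Set.Ioi (0 : ℝ) by simp only [Set.mem_Ioi]; positivity) hθ1 hθ0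
    (by ring)
  simp only [smul_eq_mul, Real.log_one, mul_zero, zero_add, mul_one] at h1
  have h2 : 1 - θ + θ * (X * Y / (x * y)) = (1 + k / (x * y)) / (1 + k / (X * Y)) := by
    rw [hθ]; field_simp; ring
  rw [h2, Real.log_div (x := 1 + k / (x * y)) (by positivity) (by positivity)] at h1
  have h3 : Real.log (X * Y / (x * y)) = -Real.log (x / X) - Real.log (y / Y) := by
    rw [Real.log_div (by positivity) (by positivity), Real.log_div hx.ne' hX.ne',
      Real.log_div hy.ne' hY.ne', Real.log_mul hX.ne' hY.ne', Real.log_mul hx.ne' hy.ne']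
    ring
  have h4 := Real.log_le_sub_one_of_pos (x := x / X) (by positivity)
  have h5 := Real.log_le_sub_one_of_pos (x := y / Y) (by positivity)
  rw [← hθ]
  rw [h3] at h1
  nlinarith [mul_le_mul_of_nonneg_left h4 hθ0, mul_le_mul_of_nonneg_left h5 hθ0]

lemma log_jensen {ι : Type*} (S : Finset ι) {s x y : ι → ℝ} {k X Y : ℝ} (hk : 0 ≤ k)
    (hs : ∀ i ∈ S, 0 ≤ s i) (hs1 : ∑ i ∈ S, s i = 1) (hx : ∀ i ∈ S, 0 < x i)
    (hy : ∀ i ∈ S, 0 < y i) (hX : 0 < X) (hY : 0 < Y) (hxX : ∑ i ∈ S, s i * x i ≤ X)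
    (hyY : ∑ i ∈ S, s i * y i ≤ Y) :
    Real.log (1 + k / (X * Y)) ≤ ∑ i ∈ S, s i * Real.log (1 + k / (x i * y i)) := by
  obtain ⟨θ, hθ⟩ : ∃ θ, θ = k / (X * Y + k) := ⟨_, rfl⟩
  have hθ0 : 0 ≤ θ := by rw [hθ]; positivity
  obtain ⟨L, hL⟩ : ∃ L, L = Real.log (1 + k / (X * Y)) := ⟨_, rfl⟩
  have h1 : ∑ i ∈ S, s i * (L - θ * (x i / X - 1 + (y i / Y - 1))) ≤
      ∑ i ∈ S, s i * Real.log (1 + k / (x i * y i)) := by
    refine Finset.sum_le_sum fun i hi => mul_le_mul_of_nonneg_left ?_ (hs i hi)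
    rw [hL, hθ]
    exact log_tangent hk (hx i hi) (hy i hi) hX hY
  have h2 : ∑ i ∈ S, s i * (L - θ * (x i / X - 1 + (y i / Y - 1))) =
      (L + 2 * θ) * ∑ i ∈ S, s i - θ * ((∑ i ∈ S, s i * x i) / X + (∑ i ∈ S, s i * y i) / Y) := by
    rw [Finset.sum_div, Finset.sum_div, ← Finset.sum_add_distrib, Finset.mul_sum, Finset.mul_sum,
      ← Finset.sum_sub_distrib]
    exact Finset.sum_congr rfl fun i _ => by ring
  have h3 : (∑ i ∈ S, s i * x i) / X ≤ 1 := (div_le_one hX).2 hxX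
  have h4 : (∑ i ∈ S, s i * y i) / Y ≤ 1 := (div_le_one hY).2 hyY
  rw [h2, hs1] at h1
  rw [← hL]
  nlinarith [mul_le_mul_of_nonneg_left h3 hθ0, mul_le_mul_of_nonneg_left h4 hθ0]

/-- scalar three-path defect -/
noncomputable def Phi (a d e : ℝ) : ℝ :=
  ent2 (a + d + e) (d * e) - negMulLog a - negMulLog d - negMulLog e

lemma rep_path {a d e : ℝ} (ha : 0 ≤ a) (hd : 0 ≤ d) (he : 0 ≤ e) :
    Rep (fun u => Real.log (1 + u * a / ((u + d) * (u + e)))) a (Phi a d e + negMulLog a) := by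
  have h0 := rep_ent2 (t := a + d + e) (p := d * e) (by positivity) (by positivity)
    (by nlinarith [sq_nonneg (d - e), mul_nonneg ha hd, mul_nonneg ha he, mul_nonneg ha ha])
  refine ((h0.sub (Rep.base hd)).sub (Rep.base he)).congr (fun u hu => ?_) (by ring)
    (by rw [Phi]; ring)
  rw [← Real.log_div (by positivity) (by positivity), ← Real.log_div (by positivity) (by positivity)]
  congr 1
  field_simp
  ring

lemma rep_Phi {a d e : ℝ} (ha : 0 ≤ a) (hd : 0 ≤ d) (he : 0 ≤ e) :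
    Rep (fun u => Real.log (1 + u * a / ((u + d) * (u + e))) - Real.log (1 + a / u)) 0
      (Phi a d e) :=
  ((rep_path ha hd he).sub (Rep.base ha)).congr (fun _ _ => rfl) (by ring) (by ring)

lemma Phi_zero {d e : ℝ} (hd : 0 ≤ d) (he : 0 ≤ e) : Phi 0 d e = 0 :=
  (rep_Phi le_rfl hd he).eq Rep.zero rfl fun u _ => by simp

lemma Phi_smul {a d e s : ℝ} (hs : 0 ≤ s) : Phi (s * a) (s * d) (s * e) = s * Phi a d e := by
  rw [Phi, Phi, show s * a + s * d + s * e = s * (a + d + e) by ring,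
    show s * d * (s * e) = s ^ 2 * (d * e) by ring, ent2_smul hs, Real.negMulLog_mul,
    Real.negMulLog_mul, Real.negMulLog_mul]
  ring

lemma Phi_sum {ι : Type*} (S : Finset ι) {a d e : ι → ℝ} {A D E : ℝ} (ha : ∀ i ∈ S, 0 ≤ a i)
    (hd : ∀ i ∈ S, 0 ≤ d i) (he : ∀ i ∈ S, 0 ≤ e i) (hA : ∑ i ∈ S, a i = A)
    (hD : ∑ i ∈ S, d i ≤ D) (hE : ∑ i ∈ S, e i ≤ E) :
    Phi A D E ≤ ∑ i ∈ S, Phi (a i) (d i) (e i) := by
  have hA0 : 0 ≤ A := hA ▸ Finset.sum_nonneg ha
  have hD0 : 0 ≤ D := (Finset.sum_nonneg hd).trans hD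
  have hE0 : 0 ≤ E := (Finset.sum_nonneg he).trans hE
  rcases hA0.eq_or_lt with h0 | h0
  · have hz := (Finset.sum_eq_zero_iff_of_nonneg ha).1 (hA.trans h0.symm)
    rw [← h0, Phi_zero hD0 hE0]
    exact Finset.sum_nonneg fun i hi => by rw [hz i hi, Phi_zero (hd i hi) (he i hi)]
  obtain ⟨s, hs⟩ : ∃ s : ι → ℝ, s = fun i => a i / A := ⟨_, rfl⟩
  have hs0 : ∀ i ∈ S, 0 ≤ s i := fun i hi => by rw [hs]; exact div_nonneg (ha i hi) hA0
  have hs1 : ∑ i ∈ S, s i = 1 := by
    rw [hs, ← Finset.sum_div, hA, div_self h0.ne']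
  have hsa : ∀ i, a i = s i * A := fun i => by rw [hs]; field_simp
  have hmul : ∀ i ∈ S, ∀ x, 0 ≤ x → s i * (x / s i) ≤ x := by
    intro i hi x hx
    rcases (hs0 i hi).eq_or_lt with h | h
    · rw [← h]; simpa using hx
    · rw [mul_div_cancel₀ _ h.ne']
  have hP : ∀ i ∈ S, Phi (a i) (d i) (e i) = s i * Phi A (d i / s i) (e i / s i) := by
    intro i hi
    rcases (hs0 i hi).eq_or_lt with h | h
    · rw [hsa i, ← h, zero_mul, zero_mul, Phi_zero (hd i hi) (he i hi)]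
    · rw [← Phi_smul h.le, mul_div_cancel₀ _ h.ne', mul_div_cancel₀ _ h.ne', ← hsa]
  rw [Finset.sum_congr rfl hP]
  have hR := Rep.sum S fun i hi => (rep_Phi hA0 (div_nonneg (hd i hi) (hs0 i hi))
    (div_nonneg (he i hi) (hs0 i hi))).smul (s i)
  refine (rep_Phi hA0 hD0 hE0).le hR (by simp) fun u hu => ?_
  simp only [mul_sub, Finset.sum_sub_distrib, ← Finset.sum_mul, hs1, one_mul, sub_le_sub_iff_right]
  refine log_jensen S (by positivity) hs0 hs1
    (fun i hi => add_pos_of_pos_of_nonneg hu (div_nonneg (hd i hi) (hs0 i hi)))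
    (fun i hi => add_pos_of_pos_of_nonneg hu (div_nonneg (he i hi) (hs0 i hi)))
    (by positivity) (by positivity) ?_ ?_
  · simp only [mul_add, Finset.sum_add_distrib, ← Finset.sum_mul, hs1, one_mul]
    have := Finset.sum_le_sum fun i hi => hmul i hi _ (hd i hi)
    linarith
  · simp only [mul_add, Finset.sum_add_distrib, ← Finset.sum_mul, hs1, one_mul]
    have := Finset.sum_le_sum fun i hi => hmul i hi _ (he i hi)
    linarith

/-- homogeneous Wootters function -/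
noncomputable def Psi (t c : ℝ) : ℝ := ent2 t (c ^ 2) - negMulLog t

lemma rep_Psi {t c : ℝ} (hc : 0 ≤ c) (h : 2 * c ≤ t) :
    Rep (fun u => Real.log (1 + c ^ 2 / (u * (u + t)))) 0 (Psi t c) := by
  have ht : 0 ≤ t := by linarith
  refine ((rep_ent2 (t := t) (p := c ^ 2) ht (by positivity) (by nlinarith)).sub
    (Rep.base ht)).congr (fun u hu => ?_) (by ring) rfl
  rw [← Real.log_div (by positivity) (by positivity)]
  congr 1
  field_simp

lemma Psi_zero {t : ℝ} (ht : 0 ≤ t) : Psi t 0 = 0 := by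
  simp [Psi, ent2_zero ht]

lemma Psi_smul {t c s : ℝ} (hs : 0 ≤ s) : Psi (s * t) (s * c) = s * Psi t c := by
  rw [Psi, Psi, mul_pow, ent2_smul hs, Real.negMulLog_mul]
  ring

lemma Psi_mono {t c c' : ℝ} (hc : 0 ≤ c) (hcc : c ≤ c') (h : 2 * c' ≤ t) : Psi t c ≤ Psi t c' := by
  have ht : 0 ≤ t := by linarith
  refine (rep_Psi hc (by linarith)).le (rep_Psi (hc.trans hcc) h) rfl fun u hu => ?_
  apply Real.log_le_log (by positivity)
  gcongr

lemma Psi_sum {ι : Type*} (S : Finset ι) {t c : ι → ℝ} {T C : ℝ} (hc : ∀ i ∈ S, 0 ≤ c i)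
    (ht : ∀ i ∈ S, 2 * c i ≤ t i) (hT : ∑ i ∈ S, t i = T) (hC0 : 0 ≤ C)
    (hC : C ≤ ∑ i ∈ S, c i) : Psi T C ≤ ∑ i ∈ S, Psi (t i) (c i) := by
  obtain ⟨A, hA⟩ : ∃ A, ∑ i ∈ S, c i = A := ⟨_, rfl⟩
  have ht0 : ∀ i ∈ S, 0 ≤ t i := fun i hi => by linarith [hc i hi, ht i hi]
  have hA0 : 0 ≤ A := hA ▸ Finset.sum_nonneg hc
  have hAT : 2 * A ≤ T := by
    rw [← hA, ← hT, Finset.mul_sum]; exact Finset.sum_le_sum ht
  have hT0 : 0 ≤ T := by linarith
  refine (Psi_mono hC0 (hA ▸ hC) hAT).trans ?_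
  rcases hA0.eq_or_lt with h0 | h0
  · have hz := (Finset.sum_eq_zero_iff_of_nonneg hc).1 (hA.trans h0.symm)
    rw [← h0, Psi_zero hT0]
    exact Finset.sum_nonneg fun i hi => by rw [hz i hi, Psi_zero (ht0 i hi)]
  obtain ⟨s, hs⟩ : ∃ s : ι → ℝ, s = fun i => c i / A := ⟨_, rfl⟩
  have hs0 : ∀ i ∈ S, 0 ≤ s i := fun i hi => by rw [hs]; exact div_nonneg (hc i hi) hA0
  have hs1 : ∑ i ∈ S, s i = 1 := by
    rw [hs, ← Finset.sum_div, hA, div_self h0.ne']
  have hsa : ∀ i, c i = s i * A := fun i => by rw [hs]; field_simp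
  obtain ⟨r, hr⟩ : ∃ r : ι → ℝ, r = fun i => if s i = 0 then 2 * A else t i / s i := ⟨_, rfl⟩
  have hrA : ∀ i ∈ S, 2 * A ≤ r i := by
    intro i hi
    rw [hr]
    rcases (hs0 i hi).eq_or_lt with h | h
    · simp [← h]
    · simp only [h.ne', if_false]
      rw [le_div_iff₀ h]
      have := ht i hi
      rw [hsa i] at this
      linarith
  have hmul : ∀ i ∈ S, s i * r i ≤ t i := by
    intro i hi
    rcases (hs0 i hi).eq_or_lt with h | h
    · rw [← h]; simpa using ht0 i hi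
    · rw [hr]; simp only [h.ne', if_false]; rw [mul_div_cancel₀ _ h.ne']
  have hP : ∀ i ∈ S, Psi (t i) (c i) = s i * Psi (r i) A := by
    intro i hi
    rcases (hs0 i hi).eq_or_lt with h | h
    · rw [hsa i, ← h, zero_mul, zero_mul, Psi_zero (ht0 i hi)]
    · rw [← Psi_smul h.le, ← hsa, hr]; simp only [h.ne', if_false]; rw [mul_div_cancel₀ _ h.ne']
  rw [Finset.sum_congr rfl hP]
  have hR := Rep.sum S fun i hi => (rep_Psi hA0 (hrA i hi)).smul (s i)
  refine (rep_Psi hA0 hAT).le hR (by simp) fun u hu => ?_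
  refine log_jensen S (x := fun _ => u) (y := fun i => u + r i) (by positivity) hs0 hs1
    (fun i hi => hu) (fun i hi => by linarith [hrA i hi]) hu (by positivity) ?_ ?_
  · rw [← Finset.sum_mul, hs1, one_mul]
  · simp only [mul_add, Finset.sum_add_distrib, ← Finset.sum_mul, hs1, one_mul]
    have := Finset.sum_le_sum hmul
    linarith

lemma Psi_add {t c t' c' C : ℝ} (hc : 0 ≤ c) (hc' : 0 ≤ c') (h : 2 * c ≤ t) (h' : 2 * c' ≤ t')
    (hC0 : 0 ≤ C) (hC : C ≤ c + c') : Psi (t + t') C ≤ Psi t c + Psi t' c' := by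
  have := Psi_sum (Finset.univ : Finset (Fin 2)) (t := ![t, t']) (c := ![c, c']) (T := t + t')
    (C := C) (fun i _ => by fin_cases i <;> simpa) (fun i _ => by fin_cases i <;> simpa)
    (by simp) hC0 (by simpa using hC)
  simpa using this

/-- homogeneous binary entropy -/
noncomputable def Bin (x z : ℝ) : ℝ := negMulLog x + negMulLog z - negMulLog (x + z)

lemma Phi_right_zero {a d : ℝ} (ha : 0 ≤ a) (hd : 0 ≤ d) : Phi a d 0 = -Bin a d := by
  rw [Phi, Bin, mul_zero, add_zero, ent2_zero (add_nonneg ha hd)]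
  simp only [negMulLog_zero]
  ring

lemma Bin_add {x z x' z' : ℝ} (hx : 0 ≤ x) (hz : 0 ≤ z) (hx' : 0 ≤ x') (hz' : 0 ≤ z') :
    Bin x z + Bin x' z' ≤ Bin (x + x') (z + z') := by
  have := Phi_sum (Finset.univ : Finset (Fin 2)) (a := ![x, x']) (d := ![z, z']) (e := fun _ => 0)
    (A := x + x') (D := z + z') (E := 0) (fun i _ => by fin_cases i <;> simpa)
    (fun i _ => by fin_cases i <;> simpa) (fun _ _ => le_rfl) (by simp) (by simp) (by simp)
  simp only [Fin.sum_univ_two, Matrix.cons_val_zero, Matrix.cons_val_one] at this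
  rw [Phi_right_zero (by positivity) (by positivity), Phi_right_zero hx hz,
    Phi_right_zero hx' hz'] at this
  linarith

end Vale.Agent.P358
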